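import Mathlib

namespace Vale.Agent.Lib.P080

/-- The infinity Laplacian of `φ` at `z`: the second derivative of `φ` at `z`
evaluated twice on the gradient of `φ` at `z`. -/
noncomputable def infLap {d : ℕ} (φ : EuclideanSpace ℝ (Fin d) → ℝ)
    (z : EuclideanSpace ℝ (Fin d)) : ℝ :=
  fderiv ℝ (fderiv ℝ φ) z (gradient φ z) (gradient φ z)

/-- Viscosity solutions of the infinity Laplace equation on `Ω`. -/
def IsInfHarmonic {d : ℕ} (u : EuclideanSpace ℝ (Fin d) → ℝ)
    (Ω : Set (EuclideanSpace ℝ (Fin d))) : Prop :=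
  ContinuousOn u Ω ∧
    ∀ (φ : EuclideanSpace ℝ (Fin d) → ℝ) (z : EuclideanSpace ℝ (Fin d)),
      z ∈ Ω → ContDiffAt ℝ 2 φ z →
        (IsLocalMax (fun x => u x - φ x) z → 0 ≤ infLap φ z) ∧
        (IsLocalMin (fun x => u x - φ x) z → infLap φ z ≤ 0)

end Vale.Agent.Lib.P080
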