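import Mathlib

/-! One dimensional jets for the separated infinity Laplace equation. -/

open Filter Topology Set

namespace Vale.Agent.Lib.P080

/-- `f` is touched from above at `t` by the parabola with slope `p` and second derivative `X`. -/
def TouchAbove (f : ℝ → ℝ) (t p X : ℝ) : Prop :=
  IsLocalMax (fun s => f s - (p * (s - t) + X / 2 * (s - t) ^ 2)) t

/-- `f` is touched from below at `t` by the parabola with slope `p` and second derivative `X`. -/
def TouchBelow (f : ℝ → ℝ) (t p X : ℝ) : Prop :=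
  IsLocalMin (fun s => f s - (p * (s - t) + X / 2 * (s - t) ^ 2)) t

/-- All jets from above at points of `I` satisfy `c ≤ p^2 X`. -/
def SubC (f : ℝ → ℝ) (I : Set ℝ) (c : ℝ) : Prop :=
  ∀ t ∈ I, ∀ p X : ℝ, TouchAbove f t p X → c ≤ p ^ 2 * X

/-- All jets from below at points of `I` satisfy `p^2 X ≤ c`. -/
def SuperC (f : ℝ → ℝ) (I : Set ℝ) (c : ℝ) : Prop :=
  ∀ t ∈ I, ∀ p X : ℝ, TouchBelow f t p X → p ^ 2 * X ≤ c

lemma touchAbove_neg {f : ℝ → ℝ} {t p X : ℝ} (h : TouchBelow f t p X) :
    TouchAbove (fun s => - f s) t (-p) (-X) := by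
  unfold TouchBelow at h
  unfold TouchAbove
  have := h.neg
  refine this.congr ?_
  filter_upwards with s
  ring

lemma touchBelow_neg {f : ℝ → ℝ} {t p X : ℝ} (h : TouchAbove f t p X) :
    TouchBelow (fun s => - f s) t (-p) (-X) := by
  unfold TouchAbove at h
  unfold TouchBelow
  have := h.neg
  refine this.congr ?_
  filter_upwards with s
  ring

lemma touchAbove_of_neg {f : ℝ → ℝ} {t p X : ℝ} (h : TouchAbove (fun s => - f s) t p X) :
    TouchBelow f t (-p) (-X) := by
  have := touchBelow_neg h
  simpa using this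

lemma touchBelow_of_neg {f : ℝ → ℝ} {t p X : ℝ} (h : TouchBelow (fun s => - f s) t p X) :
    TouchAbove f t (-p) (-X) := by
  have := touchAbove_neg h
  simpa using this

lemma subC_neg {f : ℝ → ℝ} {I : Set ℝ} {c : ℝ} (h : SuperC f I c) :
    SubC (fun s => - f s) I (-c) := by
  intro t ht p X hT
  have := h t ht (-p) (-X) (touchAbove_of_neg hT)
  nlinarith

lemma superC_neg {f : ℝ → ℝ} {I : Set ℝ} {c : ℝ} (h : SubC f I c) :
    SuperC (fun s => - f s) I (-c) := by
  intro t ht p X hT
  have := h t ht (-p) (-X) (touchBelow_of_neg hT)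
  nlinarith

/-- Shifting the base point of a parabola: a local max of `f - q` with `q` a quadratic polynomial
written around another center gives a jet at the point. -/
lemma touchAbove_of_isLocalMax {f : ℝ → ℝ} {t a b κ m e : ℝ}
    (h : IsLocalMax (fun s => f s - (e + b * (s - a) + κ * (s - m) ^ 2)) t) :
    TouchAbove f t (b + 2 * κ * (t - m)) (2 * κ) := by
  unfold TouchAbove
  refine Filter.Eventually.mono h (fun s hs => ?_)
  simp only at hs ⊢
  have e1 : e + b * (s - a) + κ * (s - m) ^ 2 = (e + b * (t - a) + κ * (t - m) ^ 2)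
      + ((b + 2 * κ * (t - m)) * (s - t) + 2 * κ / 2 * (s - t) ^ 2) := by ring
  rw [e1] at hs
  simp only [sub_self, mul_zero, ne_eq, OfNat.ofNat_ne_zero, not_false_eq_true, zero_pow, add_zero]
  linarith

lemma touchBelow_of_isLocalMin {f : ℝ → ℝ} {t a b κ m e : ℝ}
    (h : IsLocalMin (fun s => f s - (e + b * (s - a) + κ * (s - m) ^ 2)) t) :
    TouchBelow f t (b + 2 * κ * (t - m)) (2 * κ) := by
  unfold TouchBelow
  refine Filter.Eventually.mono h (fun s hs => ?_)
  simp only at hs ⊢
  have e1 : e + b * (s - a) + κ * (s - m) ^ 2 = (e + b * (t - a) + κ * (t - m) ^ 2)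
      + ((b + 2 * κ * (t - m)) * (s - t) + 2 * κ / 2 * (s - t) ^ 2) := by ring
  rw [e1] at hs
  simp only [sub_self, mul_zero, ne_eq, OfNat.ofNat_ne_zero, not_false_eq_true, zero_pow, add_zero]
  linarith

/-- A continuous function on `[a,b]` with an interior strict excess over the endpoints has an
interior local maximum. -/
lemma exists_interior_localMax {I : Set ℝ} {H : ℝ → ℝ} {a b m : ℝ}
    (hab : Icc a b ⊆ I) (hm : m ∈ Ioo a b) (hH : ContinuousOn H (Icc a b))
    (ha : H a < H m) (hb : H b < H m) :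
    ∃ t ∈ Ioo a b, t ∈ I ∧ IsLocalMax H t := by
  obtain ⟨t, ht, hmax⟩ := isCompact_Icc.exists_isMaxOn
    (⟨m, Ioo_subset_Icc_self hm⟩ : (Icc a b).Nonempty) hH
  have hmem : m ∈ Icc a b := Ioo_subset_Icc_self hm
  have hta : t ≠ a := by
    rintro rfl
    have := hmax hmem
    simp only [Set.mem_ofPred_eq] at this
    linarith
  have htb : t ≠ b := by
    rintro rfl
    have := hmax hmem
    simp only [Set.mem_ofPred_eq] at this
    linarith
  have ht' : t ∈ Ioo a b :=
    ⟨lt_of_le_of_ne ht.1 (Ne.symm hta), lt_of_le_of_ne ht.2 htb⟩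
  refine ⟨t, ht', hab ht, ?_⟩
  exact hmax.isLocalMax (Icc_mem_nhds ht'.1 ht'.2)

lemma exists_interior_localMin {I : Set ℝ} {H : ℝ → ℝ} {a b m : ℝ}
    (hab : Icc a b ⊆ I) (hm : m ∈ Ioo a b) (hH : ContinuousOn H (Icc a b))
    (ha : H m < H a) (hb : H m < H b) :
    ∃ t ∈ Ioo a b, t ∈ I ∧ IsLocalMin H t := by
  obtain ⟨t, ht, hmin⟩ := isCompact_Icc.exists_isMinOn
    (⟨m, Ioo_subset_Icc_self hm⟩ : (Icc a b).Nonempty) hH
  have hmem : m ∈ Icc a b := Ioo_subset_Icc_self hm
  have hta : t ≠ a := by
    rintro rfl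
    have := hmin hmem
    simp only [Set.mem_ofPred_eq] at this
    linarith
  have htb : t ≠ b := by
    rintro rfl
    have := hmin hmem
    simp only [Set.mem_ofPred_eq] at this
    linarith
  have ht' : t ∈ Ioo a b :=
    ⟨lt_of_le_of_ne ht.1 (Ne.symm hta), lt_of_le_of_ne ht.2 htb⟩
  refine ⟨t, ht', hab ht, ?_⟩
  exact hmin.isLocalMin (Icc_mem_nhds ht'.1 ht'.2)

/-- Chord inequality: a positive lower bound on jets from above forces convexity. -/
lemma convexOn_of_subC {f : ℝ → ℝ} {I : Set ℝ} {c : ℝ} (hIc : I.OrdConnected)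
    (hf : ContinuousOn f I) (hc : 0 < c) (hsub : SubC f I c) : ConvexOn ℝ I f := by
  refine (convexOn_iff_slope_mono_adjacent).2 ⟨hIc.convex, ?_⟩
  intro a m b ha hb ham hmb
  by_contra hcon
  have hcon := not_le.1 hcon
  have hab : Icc a b ⊆ I := hIc.out ha hb
  have hba : 0 < b - a := by linarith
  have hma : 0 < m - a := by linarith
  have hbm : 0 < b - m := by linarith
  set l := (f b - f a) / (b - a) with hl
  -- height of f at m above the chord
  set η := f m - f a - l * (m - a) with hη
  have hlmul : l * (b - a) = f b - f a := by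
    rw [hl]; field_simp
  have hηpos : 0 < η := by
    have h1 : (f b - f m) * (m - a) < (f m - f a) * (b - m) := by
      rw [div_lt_div_iff₀ hbm hma] at hcon
      linarith
    -- multiply out
    have h2 : η * (b - a) = (f m - f a) * (b - m) - (f b - f m) * (m - a) := by
      rw [hη]
      have : l * (m - a) * (b - a) = (f b - f a) * (m - a) := by rw [← hlmul]; ring
      ring_nf
      ring_nf at this
      linarith
    have h3 : 0 < η * (b - a) := by rw [h2]; linarith
    exact (pos_iff_pos_of_mul_pos h3).2 hba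
  -- choose κ
  set κ := η / (2 * (b - a) ^ 2) with hκ
  have hκpos : 0 < κ := by positivity
  have hκb : κ * (b - a) ^ 2 = η / 2 := by
    rw [hκ]; field_simp
  set H : ℝ → ℝ := fun s => f s - f a - l * (s - a) + κ * (s - m) ^ 2 with hH
  have hHc : ContinuousOn H (Icc a b) := by
    have h1 : ContinuousOn f (Icc a b) := hf.mono hab
    apply ContinuousOn.add
    · apply ContinuousOn.sub
      · exact h1.sub continuousOn_const
      · exact (continuous_const.mul (continuous_id.sub continuous_const)).continuousOn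
    · exact (continuous_const.mul ((continuous_id.sub continuous_const).pow 2)).continuousOn
  have hHm : H m = η := by simp [hH, hη]
  have hHa : H a < H m := by
    rw [hHm]
    have h1 : H a = κ * (a - m) ^ 2 := by simp [hH]
    rw [h1]
    have h2 : (a - m) ^ 2 ≤ (b - a) ^ 2 := by nlinarith
    have h3 : κ * (a - m) ^ 2 ≤ κ * (b - a) ^ 2 := mul_le_mul_of_nonneg_left h2 hκpos.le
    linarith
  have hHb : H b < H m := by
    rw [hHm]
    have h1 : H b = κ * (b - m) ^ 2 := by
      simp only [hH]
      rw [hlmul]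
      ring
    rw [h1]
    have h2 : (b - m) ^ 2 ≤ (b - a) ^ 2 := by nlinarith
    have h3 : κ * (b - m) ^ 2 ≤ κ * (b - a) ^ 2 := mul_le_mul_of_nonneg_left h2 hκpos.le
    linarith
  obtain ⟨t, _, htI, hmax⟩ := exists_interior_localMax hab ⟨ham, hmb⟩ hHc hHa hHb
  have hmax' : IsLocalMax (fun s => f s - (f a + l * (s - a) + (-κ) * (s - m) ^ 2)) t := by
    refine hmax.congr ?_
    filter_upwards with s
    simp only [hH]
    ring
  have hT := touchAbove_of_isLocalMax hmax'
  have h := hsub t htI _ _ hT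
  have : (l + 2 * -κ * (t - m)) ^ 2 * (2 * -κ) ≤ 0 := by
    have := sq_nonneg (l + 2 * -κ * (t - m))
    nlinarith
  linarith


/-- Jets exist: a continuous function on an open interval can be touched from above. -/
lemma exists_touchAbove {f : ℝ → ℝ} {I : Set ℝ} (hIo : IsOpen I) (hIc : I.OrdConnected)
    (hIn : I.Nonempty) (hf : ContinuousOn f I) :
    ∃ t ∈ I, ∃ p X : ℝ, TouchAbove f t p X := by
  obtain ⟨m, hm⟩ := hIn
  obtain ⟨ε, hε, hball⟩ := Metric.isOpen_iff.1 hIo m hm
  have ha : m - ε / 2 ∈ I := hball (by simp [Metric.mem_ball, abs_of_pos, hε])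
  have hb : m + ε / 2 ∈ I := hball (by simp [Metric.mem_ball, abs_of_pos, hε])
  have hab : Icc (m - ε / 2) (m + ε / 2) ⊆ I := hIc.out ha hb
  set a := m - ε / 2 with ha'
  set b := m + ε / 2 with hb'
  have hr : 0 < (ε / 2) ^ 2 := by positivity
  set κ := (|f a - f m| + |f b - f m| + 1) / (ε / 2) ^ 2 with hκ
  have hκr : κ * (ε / 2) ^ 2 = |f a - f m| + |f b - f m| + 1 := by
    rw [hκ]; field_simp
  set H : ℝ → ℝ := fun s => f s - (0 + 0 * (s - a) + κ * (s - m) ^ 2) with hH
  have hHc : ContinuousOn H (Icc a b) := by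
    have h1 : ContinuousOn f (Icc a b) := hf.mono hab
    apply ContinuousOn.sub h1
    fun_prop
  have hHm : H m = f m := by simp [hH]
  have hHa : H a < H m := by
    rw [hHm]
    simp only [hH]
    have e1 : (a - m) ^ 2 = (ε / 2) ^ 2 := by rw [ha']; ring
    rw [e1, hκr]
    have := le_abs_self (f a - f m)
    have := abs_nonneg (f b - f m)
    linarith
  have hHb : H b < H m := by
    rw [hHm]
    simp only [hH]
    have e1 : (b - m) ^ 2 = (ε / 2) ^ 2 := by rw [hb']; ring
    rw [e1, hκr]
    have := le_abs_self (f b - f m)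
    have := abs_nonneg (f a - f m)
    linarith
  have hmem : m ∈ Ioo a b := ⟨by rw [ha']; linarith, by rw [hb']; linarith⟩
  obtain ⟨t, _, htI, hmax⟩ := exists_interior_localMax hab hmem hHc hHa hHb
  exact ⟨t, htI, _, _, touchAbove_of_isLocalMax hmax⟩

lemma exists_touchBelow {f : ℝ → ℝ} {I : Set ℝ} (hIo : IsOpen I) (hIc : I.OrdConnected)
    (hIn : I.Nonempty) (hf : ContinuousOn f I) :
    ∃ t ∈ I, ∃ p X : ℝ, TouchBelow f t p X := by
  obtain ⟨t, ht, p, X, h⟩ := exists_touchAbove hIo hIc hIn (f := fun s => - f s) hf.neg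
  exact ⟨t, ht, _, _, touchAbove_of_neg h⟩

/-- Kink exclusion: convexity plus an upper bound on jets from below gives differentiability. -/
lemma differentiableAt_of_convex_superC {f : ℝ → ℝ} {I : Set ℝ} {c : ℝ} (hIo : IsOpen I)
    (hconv : ConvexOn ℝ I f) (hsup : SuperC f I c) {t : ℝ} (ht : t ∈ I) :
    DifferentiableAt ℝ f t := by
  have htint : t ∈ interior I := by rw [hIo.interior_eq]; exact ht
  set L := derivWithin f (Iio t) t with hL
  set R := derivWithin f (Ioi t) t with hR
  have hLR : L ≤ R := hconv.leftDeriv_le_rightDeriv_of_mem_interior htint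
  have hLd : HasDerivWithinAt f L (Iio t) t := hconv.hasDerivWithinAt_leftDeriv_of_mem_interior htint
  have hRd : HasDerivWithinAt f R (Ioi t) t := hconv.hasDerivWithinAt_rightDeriv_of_mem_interior htint
  rcases hLR.eq_or_lt with hEq | hLt
  · -- equal one sided derivatives
    have h1 : HasDerivWithinAt f R (Iio t ∪ Ioi t) t := by
      apply HasDerivWithinAt.union
      · rw [← hEq]; exact hLd
      · exact hRd
    have h2 : (Iio t ∪ Ioi t : Set ℝ) = univ \ {t} := by
      ext x
      simp
    rw [h2, hasDerivWithinAt_sdiff_singleton, hasDerivWithinAt_univ] at h1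
    exact h1.differentiableAt
  · exfalso
    -- pick a nonzero slope strictly between
    obtain ⟨p, hp1, hp2, hp0⟩ : ∃ p, L < p ∧ p < R ∧ p ≠ 0 := by
      by_cases h0 : (L + R) / 2 = 0
      · refine ⟨(L + 3 * R) / 4, by linarith, by linarith, ?_⟩
        intro h
        linarith
      · exact ⟨(L + R) / 2, by linarith, by linarith, h0⟩
    set μ := min (R - p) (p - L) with hμ
    have hμpos : 0 < μ := lt_min (by linarith) (by linarith)
    have hμ1 : μ ≤ R - p := min_le_left _ _
    have hμ2 : μ ≤ p - L := min_le_right _ _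
    -- huge second derivative
    set X := (|c| + 1) / p ^ 2 with hX
    have hp2pos : 0 < p ^ 2 := by positivity
    have hXpos : 0 < X := by positivity
    have hXp : p ^ 2 * X = |c| + 1 := by rw [hX]; field_simp
    have hT : TouchBelow f t p X := by
      unfold TouchBelow
      have hnear : ∀ᶠ s in 𝓝 t, s ∈ I ∧ |s - t| < 2 * μ / X := by
        have h1 : I ∈ 𝓝 t := hIo.mem_nhds ht
        have h2 : ∀ᶠ s in 𝓝 t, |s - t| < 2 * μ / X := by
          have : Tendsto (fun s : ℝ => |s - t|) (𝓝 t) (𝓝 0) := by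
            have h3 : Tendsto (fun s : ℝ => |s - t|) (𝓝 t) (𝓝 (|t - t|)) :=
              (continuous_abs.comp (continuous_id.sub continuous_const)).tendsto t
            simpa using h3
          exact this.eventually (gt_mem_nhds (by positivity))
        filter_upwards [h1, h2] with s hs1 hs2
        exact ⟨hs1, hs2⟩
      refine Filter.Eventually.mono hnear ?_
      rintro s ⟨hsI, hsabs⟩
      simp only [sub_self, mul_zero, ne_eq, OfNat.ofNat_ne_zero, not_false_eq_true, zero_pow,
        add_zero, sub_zero]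
      have hquad : X / 2 * (s - t) ^ 2 ≤ μ * |s - t| := by
        have h1 : X / 2 * (s - t) ^ 2 = X / 2 * |s - t| * |s - t| := by
          rw [mul_assoc, ← sq, sq_abs]
        rw [h1]
        have h2 : X / 2 * |s - t| ≤ μ := by
          have : X * |s - t| < 2 * μ := by
            have := mul_lt_mul_of_pos_left hsabs hXpos
            have e : X * (2 * μ / X) = 2 * μ := by field_simp
            linarith
          linarith
        exact mul_le_mul_of_nonneg_right h2 (abs_nonneg _)
      rcases lt_trichotomy s t with hst | hst | hst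
      · -- s < t
        have hslope : slope f s t ≤ L :=
          hconv.slope_le_leftDeriv_of_mem_interior hsI htint hst
        rw [slope_def_field] at hslope
        have hpos : 0 < t - s := by linarith
        rw [div_le_iff₀ hpos] at hslope
        rw [abs_of_neg (by linarith : s - t < 0)] at hquad
        nlinarith
      · subst hst
        simp
      · have hslope : R ≤ slope f t s :=
          hconv.rightDeriv_le_slope_of_mem_interior htint hsI hst
        rw [slope_def_field] at hslope
        have hpos : 0 < s - t := by linarith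
        rw [le_div_iff₀ hpos] at hslope
        rw [abs_of_pos hpos] at hquad
        nlinarith
    have := hsup t ht p X hT
    rw [hXp] at this
    have h3 := le_abs_self c
    linarith


lemma eventually_gt_right_of_hasDerivAt_pos {h : ℝ → ℝ} {h' t : ℝ} (hd : HasDerivAt h h' t)
    (hpos : 0 < h') : ∀ᶠ y in 𝓝[>] t, h t < h y := by
  have h1 := hasDerivAt_iff_tendsto_slope.1 hd
  have h2 : ∀ᶠ y in 𝓝[≠] t, 0 < slope h t y := h1.eventually (lt_mem_nhds hpos)
  have h3 : ∀ᶠ y in 𝓝[>] t, 0 < slope h t y :=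
    h2.filter_mono (nhdsWithin_mono t (fun y hy => ne_of_gt hy))
  filter_upwards [h3, self_mem_nhdsWithin] with y hy hyt
  rw [slope_def_field] at hy
  have hyt' : 0 < y - t := sub_pos.2 hyt
  rw [div_pos_iff_of_pos_right hyt'] at hy
  linarith

lemma eventually_gt_left_of_hasDerivAt_neg {h : ℝ → ℝ} {h' t : ℝ} (hd : HasDerivAt h h' t)
    (hneg : h' < 0) : ∀ᶠ y in 𝓝[<] t, h t < h y := by
  have h1 := hasDerivAt_iff_tendsto_slope.1 hd
  have h2 : ∀ᶠ y in 𝓝[≠] t, slope h t y < 0 := h1.eventually (gt_mem_nhds hneg)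
  have h3 : ∀ᶠ y in 𝓝[<] t, slope h t y < 0 :=
    h2.filter_mono (nhdsWithin_mono t (fun y hy => ne_of_lt hy))
  filter_upwards [h3, self_mem_nhdsWithin] with y hy hyt
  rw [slope_def_field] at hy
  have hyt' : y - t < 0 := sub_neg.2 hyt
  rw [div_neg_iff] at hy
  rcases hy with ⟨_, h5⟩ | ⟨h4, _⟩
  · linarith
  · linarith

/-- Interior touching point from the derivative signs at the two ends. -/
lemma exists_jet_above {f : ℝ → ℝ} {I : Set ℝ} {c : ℝ} (hIc : I.OrdConnected)
    (hd : ∀ t ∈ I, DifferentiableAt ℝ f t) (hsub : SubC f I c) {t s : ℝ} (ht : t ∈ I) (hs : s ∈ I)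
    (hts : t < s) {δ : ℝ} (hδ : 0 < δ) :
    ∃ r ∈ Ioo t s, c ≤ (deriv f r) ^ 2 * ((deriv f s - deriv f t + 2 * δ) / (s - t)) := by
  set X := (deriv f s - deriv f t + 2 * δ) / (s - t) with hX
  have hst : 0 < s - t := sub_pos.2 hts
  have hXm : X * (s - t) = deriv f s - deriv f t + 2 * δ := by
    rw [hX]; field_simp
  set b := deriv f t - δ with hb
  set h : ℝ → ℝ := fun y => f y - (0 + b * (y - t) + (X / 2) * (y - t) ^ 2) with hh
  have hab : Icc t s ⊆ I := hIc.out ht hs
  have hderiv : ∀ y ∈ I, HasDerivAt h (deriv f y - (b + 2 * (X / 2) * (y - t))) y := by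
    intro y hy
    have h1 : HasDerivAt f (deriv f y) y := (hd y hy).hasDerivAt
    have h2 : HasDerivAt (fun y : ℝ => 0 + b * (y - t) + (X / 2) * (y - t) ^ 2)
        (b + 2 * (X / 2) * (y - t)) y := by
      have h3 : HasDerivAt (fun y : ℝ => y - t) 1 y := (hasDerivAt_id y).sub_const t
      have h4 := ((h3.const_mul b).const_add 0).add ((h3.pow 2).const_mul (X / 2))
      refine h4.congr_deriv ?_
      simp
      ring
    exact h1.sub h2
  have hcont : ContinuousOn h (Icc t s) := by
    intro y hy
    exact (hderiv y (hab hy)).continuousAt.continuousWithinAt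
  obtain ⟨r, hr, hmax⟩ := isCompact_Icc.exists_isMaxOn
    (⟨t, left_mem_Icc.2 hts.le⟩ : (Icc t s).Nonempty) hcont
  -- r is not the left end
  have hrt : r ≠ t := by
    rintro rfl
    have hpos : 0 < deriv f r - (b + 2 * (X / 2) * (r - r)) := by
      rw [hb]; simp; linarith
    have hev := eventually_gt_right_of_hasDerivAt_pos (hderiv r ht) hpos
    have hev2 : ∀ᶠ y in 𝓝[>] r, y ∈ Icc r s := by
      filter_upwards [Ioo_mem_nhdsGT hts] with y hy
      exact ⟨hy.1.le, hy.2.le⟩
    obtain ⟨y, hy1, hy2⟩ := (hev.and hev2).exists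
    have := hmax hy2
    simp only [Set.mem_ofPred_eq] at this
    linarith
  have hrs : r ≠ s := by
    rintro rfl
    have hneg : deriv f r - (b + 2 * (X / 2) * (r - t)) < 0 := by
      have e : 2 * (X / 2) * (r - t) = deriv f r - deriv f t + 2 * δ := by
        rw [← hXm]; ring
      rw [e, hb]
      linarith
    have hev := eventually_gt_left_of_hasDerivAt_neg (hderiv r hs) hneg
    have hev2 : ∀ᶠ y in 𝓝[<] r, y ∈ Icc t r := by
      filter_upwards [Ioo_mem_nhdsLT hts] with y hy
      exact ⟨hy.1.le, hy.2.le⟩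
    obtain ⟨y, hy1, hy2⟩ := (hev.and hev2).exists
    have := hmax hy2
    simp only [Set.mem_ofPred_eq] at this
    linarith
  have hr' : r ∈ Ioo t s := ⟨lt_of_le_of_ne hr.1 (Ne.symm hrt), lt_of_le_of_ne hr.2 hrs⟩
  have hlocal : IsLocalMax h r := hmax.isLocalMax (Icc_mem_nhds hr'.1 hr'.2)
  have hzero := hlocal.hasDerivAt_eq_zero (hderiv r (hab hr))
  have hT := touchAbove_of_isLocalMax hlocal
  have hX2 : 2 * (X / 2) = X := by ring
  rw [hX2] at hT
  have hc := hsub r (hab hr) _ _ hT
  refine ⟨r, hr', ?_⟩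
  have hp : b + X * (r - t) = deriv f r := by
    rw [hX2] at hzero
    linarith
  rw [hp] at hc
  exact hc

lemma deriv_neg_fun {f : ℝ → ℝ} (t : ℝ) : deriv (fun s => - f s) t = - deriv f t := by
  simp

/-- Mirror statement for jets from below. -/
lemma exists_jet_below {f : ℝ → ℝ} {I : Set ℝ} {c : ℝ} (hIc : I.OrdConnected)
    (hd : ∀ t ∈ I, DifferentiableAt ℝ f t) (hsup : SuperC f I c) {t s : ℝ} (ht : t ∈ I) (hs : s ∈ I)
    (hts : t < s) {δ : ℝ} (hδ : 0 < δ) :
    ∃ r ∈ Ioo t s, (deriv f r) ^ 2 * ((deriv f s - deriv f t - 2 * δ) / (s - t)) ≤ c := by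
  have hd' : ∀ t ∈ I, DifferentiableAt ℝ (fun s => - f s) t := fun t ht => (hd t ht).neg
  obtain ⟨r, hr, h⟩ := exists_jet_above hIc hd' (subC_neg hsup) ht hs hts hδ
  refine ⟨r, hr, ?_⟩
  rw [deriv_neg_fun, deriv_neg_fun, deriv_neg_fun] at h
  have e1 : (- deriv f s - - deriv f t + 2 * δ) / (s - t)
      = - ((deriv f s - deriv f t - 2 * δ) / (s - t)) := by
    ring
  rw [e1] at h
  nlinarith


section Core

variable {f : ℝ → ℝ} {I : Set ℝ} {c₁ c₂ : ℝ}

lemma strictMonoOn_deriv_of_subC (hIc : I.OrdConnected)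
    (hd : ∀ t ∈ I, DifferentiableAt ℝ f t) (hconv : ConvexOn ℝ I f) (hc₁ : 0 < c₁)
    (hsub : SubC f I c₁) : StrictMonoOn (deriv f) I := by
  have hmono := hconv.monotoneOn_deriv hd
  intro t ht s hs hts
  refine lt_of_le_of_ne (hmono ht hs hts.le) ?_
  intro hEq
  have hst : 0 < s - t := sub_pos.2 hts
  set δ := c₁ * (s - t) / (4 * ((deriv f t) ^ 2 + 1)) with hδdef
  have hden : 0 < (deriv f t) ^ 2 + 1 := by positivity
  have hδ : 0 < δ := by positivity
  obtain ⟨r, hr, h⟩ := exists_jet_above hIc hd hsub ht hs hts hδ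
  have hab : Icc t s ⊆ I := hIc.out ht hs
  have hrI : r ∈ I := hab (Ioo_subset_Icc_self hr)
  have hr1 : deriv f t ≤ deriv f r := hmono ht hrI hr.1.le
  have hr2 : deriv f r ≤ deriv f s := hmono hrI hs hr.2.le
  have hr3 : deriv f r = deriv f t := le_antisymm (by rw [hEq]; exact hr2) hr1
  rw [hr3, ← hEq] at h
  have e1 : (deriv f t - deriv f t + 2 * δ) / (s - t) = 2 * δ / (s - t) := by ring
  rw [e1] at h
  have e2 : (deriv f t) ^ 2 * (2 * δ / (s - t)) = c₁ * ((deriv f t) ^ 2 / (2 * ((deriv f t) ^ 2 + 1))) := by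
    rw [hδdef]
    field_simp
    ring
  rw [e2] at h
  have h3 : (deriv f t) ^ 2 / (2 * ((deriv f t) ^ 2 + 1)) < 1 := by
    rw [div_lt_one (by positivity)]
    nlinarith [sq_nonneg (deriv f t)]
  nlinarith

lemma continuousOn_deriv_of_strictMono (hIo : IsOpen I) (hIc : I.OrdConnected)
    (hd : ∀ t ∈ I, DifferentiableAt ℝ f t) (hmono : StrictMonoOn (deriv f) I) :
    ContinuousOn (deriv f) I := by
  intro a ha
  apply ContinuousAt.continuousWithinAt
  obtain ⟨ε, hε, hball⟩ := Metric.isOpen_iff.1 hIo a ha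
  have h1 : a - ε / 2 ∈ I := hball (by simp [Metric.mem_ball, abs_of_pos, hε])
  have h2 : a + ε / 2 ∈ I := hball (by simp [Metric.mem_ball, abs_of_pos, hε])
  have hord := Set.OrdConnected.image_deriv hIc hd
  have hsub : Icc (deriv f (a - ε / 2)) (deriv f (a + ε / 2)) ⊆ deriv f '' I :=
    hord.out ⟨_, h1, rfl⟩ ⟨_, h2, rfl⟩
  have h3 : deriv f (a - ε / 2) < deriv f a := hmono h1 ha (by linarith)
  have h4 : deriv f a < deriv f (a + ε / 2) := hmono ha h2 (by linarith)
  have hnhds : deriv f '' I ∈ 𝓝 (deriv f a) :=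
    Filter.mem_of_superset (Icc_mem_nhds h3 h4) hsub
  exact hmono.continuousAt_of_image_mem_nhds (hIo.mem_nhds ha) hnhds

/-- Upper inequality on an interval. -/
lemma ineq_up (hIc : I.OrdConnected) (hd : ∀ t ∈ I, DifferentiableAt ℝ f t)
    (hsub : SubC f I c₁) {t s M : ℝ} (ht : t ∈ I) (hs : s ∈ I) (hts : t < s)
    (hD : deriv f t ≤ deriv f s) (hM0 : 0 ≤ M)
    (hM : ∀ r ∈ Ioo t s, (deriv f r) ^ 2 ≤ M) :
    c₁ * (s - t) ≤ M * (deriv f s - deriv f t) := by
  have hst : 0 < s - t := sub_pos.2 hts
  apply le_of_forall_pos_le_add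
  intro ε hε
  set δ := ε / (2 * (M + 1)) with hδdef
  have hden : 0 < M + 1 := by positivity
  have hδ : 0 < δ := by positivity
  obtain ⟨r, hr, h⟩ := exists_jet_above hIc hd hsub ht hs hts hδ
  have hX : 0 ≤ (deriv f s - deriv f t + 2 * δ) / (s - t) := by
    apply div_nonneg _ hst.le
    linarith
  have h2 : c₁ ≤ M * ((deriv f s - deriv f t + 2 * δ) / (s - t)) :=
    h.trans (mul_le_mul_of_nonneg_right (hM r hr) hX)
  have h3 : c₁ * (s - t) ≤ M * (deriv f s - deriv f t + 2 * δ) := by
    have := mul_le_mul_of_nonneg_right h2 hst.le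
    have e : M * ((deriv f s - deriv f t + 2 * δ) / (s - t)) * (s - t)
        = M * (deriv f s - deriv f t + 2 * δ) := by
      field_simp
    linarith
  have h4 : M * (2 * δ) ≤ ε := by
    have : M * (2 * δ) = ε * (M / (M + 1)) := by
      rw [hδdef]; field_simp
    rw [this]
    have h5 : M / (M + 1) ≤ 1 := by
      rw [div_le_one hden]; linarith
    nlinarith
  nlinarith

/-- Lower inequality on an interval. -/
lemma ineq_low (hIc : I.OrdConnected) (hd : ∀ t ∈ I, DifferentiableAt ℝ f t)
    (hsup : SuperC f I c₂) {t s m : ℝ} (ht : t ∈ I) (hs : s ∈ I) (hts : t < s)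
    (hD : deriv f t < deriv f s) (hm0 : 0 ≤ m)
    (hm : ∀ r ∈ Ioo t s, m ≤ (deriv f r) ^ 2) :
    m * (deriv f s - deriv f t) ≤ c₂ * (s - t) := by
  have hst : 0 < s - t := sub_pos.2 hts
  set D := deriv f s - deriv f t with hDdef
  have hDpos : 0 < D := sub_pos.2 hD
  apply le_of_forall_pos_le_add
  intro ε hε
  set δ := min (D / 2) (ε / (2 * (m + 1))) with hδdef
  have hden : 0 < m + 1 := by positivity
  have hδ : 0 < δ := lt_min (by positivity) (by positivity)
  have hδ1 : δ ≤ D / 2 := min_le_left _ _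
  have hδ2 : δ ≤ ε / (2 * (m + 1)) := min_le_right _ _
  obtain ⟨r, hr, h⟩ := exists_jet_below hIc hd hsup ht hs hts hδ
  have hX : 0 ≤ (D - 2 * δ) / (s - t) := by
    apply div_nonneg _ hst.le
    linarith
  have h2 : m * ((D - 2 * δ) / (s - t)) ≤ c₂ :=
    (mul_le_mul_of_nonneg_right (hm r hr) hX).trans h
  have h3 : m * (D - 2 * δ) ≤ c₂ * (s - t) := by
    have := mul_le_mul_of_nonneg_right h2 hst.le
    have e : m * ((D - 2 * δ) / (s - t)) * (s - t) = m * (D - 2 * δ) := by
      field_simp
    linarith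
  have h4 : m * (2 * δ) ≤ ε := by
    have h5 : 2 * δ ≤ ε / (m + 1) := by
      have e : ε / (2 * (m + 1)) * 2 = ε / (m + 1) := by field_simp
      linarith
    have h6 : m * (2 * δ) ≤ m * (ε / (m + 1)) := mul_le_mul_of_nonneg_left h5 hm0
    have h7 : m * (ε / (m + 1)) = ε * (m / (m + 1)) := by field_simp
    have h8 : m / (m + 1) ≤ 1 := by
      rw [div_le_one hden]; linarith
    nlinarith
  nlinarith

/-- The two sided estimate at points to the right of a point with nonnegative slope. -/
lemma two_sided_pos (hIc : I.OrdConnected) (hd : ∀ t ∈ I, DifferentiableAt ℝ f t)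
    (hmono : StrictMonoOn (deriv f) I) (hsub : SubC f I c₁) (hsup : SuperC f I c₂)
    {t s : ℝ} (ht : t ∈ I) (hs : s ∈ I) (hts : t < s) (h0 : 0 ≤ deriv f t) :
    c₁ * (s - t) ≤ (deriv f s) ^ 2 * (deriv f s - deriv f t) ∧
      (deriv f t) ^ 2 * (deriv f s - deriv f t) ≤ c₂ * (s - t) := by
  have hab : Icc t s ⊆ I := hIc.out ht hs
  have hD := hmono ht hs hts
  constructor
  · refine ineq_up hIc hd hsub ht hs hts hD.le (sq_nonneg _) ?_
    intro r hr
    have hrI : r ∈ I := hab (Ioo_subset_Icc_self hr)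
    have h1 := hmono ht hrI hr.1
    have h2 := hmono hrI hs hr.2
    apply sq_le_sq' <;> linarith
  · refine ineq_low hIc hd hsup ht hs hts hD (sq_nonneg _) ?_
    intro r hr
    have hrI : r ∈ I := hab (Ioo_subset_Icc_self hr)
    have h1 := hmono ht hrI hr.1
    apply sq_le_sq' <;> linarith

/-- The two sided estimate at points to the left of a point with nonpositive slope. -/
lemma two_sided_neg (hIc : I.OrdConnected) (hd : ∀ t ∈ I, DifferentiableAt ℝ f t)
    (hmono : StrictMonoOn (deriv f) I) (hsub : SubC f I c₁) (hsup : SuperC f I c₂)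
    {t s : ℝ} (ht : t ∈ I) (hs : s ∈ I) (hts : t < s) (h0 : deriv f s ≤ 0) :
    c₁ * (s - t) ≤ (deriv f t) ^ 2 * (deriv f s - deriv f t) ∧
      (deriv f s) ^ 2 * (deriv f s - deriv f t) ≤ c₂ * (s - t) := by
  have hab : Icc t s ⊆ I := hIc.out ht hs
  have hD := hmono ht hs hts
  constructor
  · refine ineq_up hIc hd hsub ht hs hts hD.le (sq_nonneg _) ?_
    intro r hr
    have hrI : r ∈ I := hab (Ioo_subset_Icc_self hr)
    have h1 := hmono ht hrI hr.1
    have h2 := hmono hrI hs hr.2
    rw [sq_le_sq]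
    rw [abs_of_nonpos (by linarith), abs_of_nonpos (by linarith)]
    linarith
  · refine ineq_low hIc hd hsup ht hs hts hD (sq_nonneg _) ?_
    intro r hr
    have hrI : r ∈ I := hab (Ioo_subset_Icc_self hr)
    have h2 := hmono hrI hs hr.2
    rw [sq_le_sq]
    rw [abs_of_nonpos (by linarith), abs_of_nonpos (by linarith)]
    linarith


/-- There is a point with nonzero slope, and the gap between the bounds closes. -/
lemma le_of_pos_subC_superC (hIo : IsOpen I) (hIc : I.OrdConnected) (hIn : I.Nonempty)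
    (hf : ContinuousOn f I) (hc₁ : 0 < c₁) (hsub : SubC f I c₁) (hsup : SuperC f I c₂) :
    c₁ ≤ c₂ := by
  have hconv := convexOn_of_subC hIc hf hc₁ hsub
  have hd : ∀ t ∈ I, DifferentiableAt ℝ f t := fun t ht =>
    differentiableAt_of_convex_superC hIo hconv hsup ht
  have hmono := strictMonoOn_deriv_of_subC hIc hd hconv hc₁ hsub
  have hcont := continuousOn_deriv_of_strictMono hIo hIc hd hmono
  obtain ⟨m, hm⟩ := hIn
  obtain ⟨ε, hε, hball⟩ := Metric.isOpen_iff.1 hIo m hm
  have h1 : m - ε / 2 ∈ I := hball (by simp [Metric.mem_ball, abs_of_pos, hε])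
  have h2 : m + ε / 2 ∈ I := hball (by simp [Metric.mem_ball, abs_of_pos, hε])
  have h12 := hmono h1 h2 (by linarith)
  obtain ⟨t, ht, ht0⟩ : ∃ t ∈ I, deriv f t ≠ 0 := by
    by_cases h : deriv f (m + ε / 2) = 0
    · exact ⟨_, h1, by rw [h] at h12; exact ne_of_lt h12⟩
    · exact ⟨_, h2, h⟩
  have htpos : 0 < (deriv f t) ^ 2 := by positivity
  have hcontt : ContinuousAt (deriv f) t :=
    (hcont t ht).continuousAt (hIo.mem_nhds ht)
  have hTend : Tendsto (fun s => c₂ * (deriv f s) ^ 2) (𝓝 t) (𝓝 (c₂ * (deriv f t) ^ 2)) :=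
    (continuousAt_const.mul (hcontt.pow 2)).tendsto
  have key : c₁ * (deriv f t) ^ 2 ≤ c₂ * (deriv f t) ^ 2 := by
    rcases lt_or_gt_of_ne ht0 with hneg | hpos
    · -- negative slope: approach from the left
      have hev : ∀ᶠ s in 𝓝[<] t, c₁ * (deriv f t) ^ 2 ≤ c₂ * (deriv f s) ^ 2 := by
        have hmemI : I ∈ 𝓝[<] t := mem_nhdsWithin_of_mem_nhds (hIo.mem_nhds ht)
        filter_upwards [hmemI, self_mem_nhdsWithin] with s hsI hst
        have hst' : s < t := hst
        obtain ⟨h3, h4⟩ := two_sided_neg hIc hd hmono hsub hsup hsI ht hst' hneg.le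
        have hpos' : 0 < t - s := sub_pos.2 hst'
        have h5 : c₁ * (deriv f t) ^ 2 * (t - s) ≤ c₂ * (deriv f s) ^ 2 * (t - s) := by
          have h6 := mul_le_mul_of_nonneg_left h3 (sq_nonneg (deriv f t))
          have h7 := mul_le_mul_of_nonneg_left h4 (sq_nonneg (deriv f s))
          nlinarith
        exact le_of_mul_le_mul_right h5 hpos'
      exact ge_of_tendsto (hTend.mono_left nhdsWithin_le_nhds) hev
    · have hev : ∀ᶠ s in 𝓝[>] t, c₁ * (deriv f t) ^ 2 ≤ c₂ * (deriv f s) ^ 2 := by
        have hmemI : I ∈ 𝓝[>] t := mem_nhdsWithin_of_mem_nhds (hIo.mem_nhds ht)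
        filter_upwards [hmemI, self_mem_nhdsWithin] with s hsI hst
        have hst' : t < s := hst
        obtain ⟨h3, h4⟩ := two_sided_pos hIc hd hmono hsub hsup ht hsI hst' hpos.le
        have hpos' : 0 < s - t := sub_pos.2 hst'
        have h5 : c₁ * (deriv f t) ^ 2 * (s - t) ≤ c₂ * (deriv f s) ^ 2 * (s - t) := by
          have h6 := mul_le_mul_of_nonneg_left h3 (sq_nonneg (deriv f t))
          have h7 := mul_le_mul_of_nonneg_left h4 (sq_nonneg (deriv f s))
          nlinarith
        exact le_of_mul_le_mul_right h5 hpos'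
      exact ge_of_tendsto (hTend.mono_left nhdsWithin_le_nhds) hev
  exact le_of_mul_le_mul_right key htpos

/-- No gap: jets from above and from below cannot be separated. -/
lemma le_of_subC_superC (hIo : IsOpen I) (hIc : I.OrdConnected) (hIn : I.Nonempty)
    (hf : ContinuousOn f I) (hsub : SubC f I c₁) (hsup : SuperC f I c₂) : c₁ ≤ c₂ := by
  by_contra hcon
  have hcon := not_le.1 hcon
  by_cases hc₁ : 0 < c₁
  · exact absurd (le_of_pos_subC_superC hIo hIc hIn hf hc₁ hsub hsup) (not_le.2 hcon)
  · have hc₂ : 0 < - c₂ := by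
      have := not_lt.1 hc₁
      linarith
    have := le_of_pos_subC_superC (f := fun s => - f s) hIo hIc hIn hf.neg hc₂
      (subC_neg hsup) (superC_neg hsub)
    linarith

/-- The slope solves the separated equation wherever it does not vanish. -/
lemma hasDerivAt_deriv_of_pos {c : ℝ} (hIo : IsOpen I) (hIc : I.OrdConnected)
    (hd : ∀ t ∈ I, DifferentiableAt ℝ f t) (hmono : StrictMonoOn (deriv f) I)
    (hcont : ContinuousOn (deriv f) I) (hsub : SubC f I c) (hsup : SuperC f I c)
    {t : ℝ} (ht : t ∈ I) (ht0 : deriv f t ≠ 0) :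
    HasDerivAt (deriv f) (c / (deriv f t) ^ 2) t := by
  have hcontt : ContinuousAt (deriv f) t := (hcont t ht).continuousAt (hIo.mem_nhds ht)
  have htpos : 0 < (deriv f t) ^ 2 := by positivity
  rw [hasDerivAt_iff_tendsto_slope]
  set A : ℝ → ℝ := fun s => c / (deriv f s) ^ 2 with hA
  have hAcont : ContinuousAt A t := by
    apply ContinuousAt.div continuousAt_const (hcontt.pow 2)
    exact htpos.ne'
  have hAt : A t = c / (deriv f t) ^ 2 := rfl
  have hlow : Tendsto (fun s => min (A s) (A t)) (𝓝[≠] t) (𝓝 (A t)) := by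
    have h1 : ContinuousAt (fun s => min (A s) (A t)) t := hAcont.min continuousAt_const
    have h2 := h1.tendsto
    simp only [min_self] at h2
    exact h2.mono_left nhdsWithin_le_nhds
  have hupp : Tendsto (fun s => max (A s) (A t)) (𝓝[≠] t) (𝓝 (A t)) := by
    have h1 : ContinuousAt (fun s => max (A s) (A t)) t := hAcont.max continuousAt_const
    have h2 := h1.tendsto
    simp only [max_self] at h2
    exact h2.mono_left nhdsWithin_le_nhds
  -- the slope lies between the two values
  have hsign : ∀ᶠ s in 𝓝 t, 0 < deriv f s * deriv f t := by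
    have h1 : ContinuousAt (fun s => deriv f s * deriv f t) t := hcontt.mul continuousAt_const
    have h2 : 0 < deriv f t * deriv f t := mul_self_pos.2 ht0
    exact h1.eventually (lt_mem_nhds h2)
  have hbetween : ∀ᶠ s in 𝓝[≠] t, min (A s) (A t) ≤ slope (deriv f) t s ∧
      slope (deriv f) t s ≤ max (A s) (A t) := by
    have hmemI : I ∈ 𝓝 t := hIo.mem_nhds ht
    filter_upwards [nhdsWithin_le_nhds hsign, nhdsWithin_le_nhds hmemI, self_mem_nhdsWithin]
      with s hs1 hsI hsne
    have hsne' : s ≠ t := hsne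
    have hs0 : deriv f s ≠ 0 := by
      intro h
      rw [h] at hs1
      simp at hs1
    have hs2pos : 0 < (deriv f s) ^ 2 := by positivity
    rw [slope_def_field]
    rcases lt_or_gt_of_ne hsne' with hst | hst
    · -- s < t
      have hpos' : 0 < t - s := sub_pos.2 hst
      have hslope : (deriv f s - deriv f t) / (s - t) = (deriv f t - deriv f s) / (t - s) := by
        rw [← neg_sub (deriv f t) (deriv f s), ← neg_sub t s, neg_div_neg_eq]
      rw [hslope]
      rcases lt_or_gt_of_ne ht0 with hneg | hpos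
      · obtain ⟨h3, h4⟩ := two_sided_neg hIc hd hmono hsub hsup hsI ht hst hneg.le
        constructor
        · refine (min_le_left _ _).trans ?_
          rw [hA]
          simp only
          rw [div_le_div_iff₀ hs2pos hpos']
          nlinarith
        · refine le_trans ?_ (le_max_right _ _)
          rw [hA]
          simp only
          rw [div_le_div_iff₀ hpos' htpos]
          nlinarith
      · have hs0' : 0 ≤ deriv f s := by
          by_contra hh
          have hh := not_le.1 hh
          nlinarith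
        obtain ⟨h3, h4⟩ := two_sided_pos hIc hd hmono hsub hsup hsI ht hst hs0'
        constructor
        · refine (min_le_right _ _).trans ?_
          rw [hA]
          simp only
          rw [div_le_div_iff₀ htpos hpos']
          nlinarith
        · refine le_trans ?_ (le_max_left _ _)
          rw [hA]
          simp only
          rw [div_le_div_iff₀ hpos' hs2pos]
          nlinarith
    · have hst' : t < s := hst
      have hpos' : 0 < s - t := sub_pos.2 hst'
      rcases lt_or_gt_of_ne ht0 with hneg | hpos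
      · have hs0' : deriv f s ≤ 0 := by
          by_contra hh
          have hh := not_le.1 hh
          nlinarith
        obtain ⟨h3, h4⟩ := two_sided_neg hIc hd hmono hsub hsup ht hsI hst' hs0'
        constructor
        · refine (min_le_right _ _).trans ?_
          rw [hA]
          simp only
          rw [div_le_div_iff₀ htpos hpos']
          nlinarith
        · refine le_trans ?_ (le_max_left _ _)
          rw [hA]
          simp only
          rw [div_le_div_iff₀ hpos' hs2pos]
          nlinarith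
      · obtain ⟨h3, h4⟩ := two_sided_pos hIc hd hmono hsub hsup ht hsI hst' hpos.le
        constructor
        · refine (min_le_left _ _).trans ?_
          rw [hA]
          simp only
          rw [div_le_div_iff₀ hs2pos hpos']
          nlinarith
        · refine le_trans ?_ (le_max_right _ _)
          rw [hA]
          simp only
          rw [div_le_div_iff₀ hpos' htpos]
          nlinarith
  exact tendsto_of_tendsto_of_tendsto_of_le_of_le' hlow hupp
    (hbetween.mono fun s hs => hs.1) (hbetween.mono fun s hs => hs.2)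

/-- Classification for a positive constant. -/
lemma classify_pos {c : ℝ} (hIo : IsOpen I) (hIc : I.OrdConnected) (hIn : I.Nonempty)
    (hf : ContinuousOn f I) (hc : 0 < c) (hsub : SubC f I c) (hsup : SuperC f I c) :
    ∃ b : ℝ, ∀ t ∈ I, DifferentiableAt ℝ f t ∧ (deriv f t) ^ 3 = 3 * c * t + b := by
  have hconv := convexOn_of_subC hIc hf hc hsub
  have hd : ∀ t ∈ I, DifferentiableAt ℝ f t := fun t ht =>
    differentiableAt_of_convex_superC hIo hconv hsup ht
  have hmono := strictMonoOn_deriv_of_subC hIc hd hconv hc hsub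
  have hcont := continuousOn_deriv_of_strictMono hIo hIc hd hmono
  set K : ℝ → ℝ := fun r => (deriv f r) ^ 3 - 3 * c * r with hK
  have hKd : ∀ r ∈ I, deriv f r ≠ 0 → HasDerivAt K 0 r := by
    intro r hr hr0
    have h1 := hasDerivAt_deriv_of_pos hIo hIc hd hmono hcont hsub hsup hr hr0
    have h2 := (h1.pow 3).sub ((hasDerivAt_id r).const_mul (3 * c))
    refine h2.congr_deriv ?_
    have : (deriv f r) ^ 2 ≠ 0 := by positivity
    simp only [Nat.cast_ofNat, Nat.add_one_sub_one, mul_one]
    field_simp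
    ring
  have hKc : ContinuousOn K I := by
    apply ContinuousOn.sub (hcont.pow 3)
    fun_prop
  -- K agrees at the ends of an interval without interior zero of the slope
  have hstep : ∀ a ∈ I, ∀ b ∈ I, a < b → (∀ r ∈ Ioo a b, deriv f r ≠ 0) → K a = K b := by
    intro a ha b hb hab hne
    have hIcc : Icc a b ⊆ I := hIc.out ha hb
    have h1 : ContinuousOn K (Icc a b) := hKc.mono hIcc
    have h2 : DifferentiableOn ℝ K (Ioo a b) := by
      intro r hr
      exact (hKd r (hIcc (Ioo_subset_Icc_self hr)) (hne r hr)).differentiableAt.differentiableWithinAt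
    obtain ⟨ξ, hξ, hξ2⟩ := exists_deriv_eq_slope K hab h1 h2
    have h3 : deriv K ξ = 0 := (hKd ξ (hIcc (Ioo_subset_Icc_self hξ)) (hne ξ hξ)).deriv
    rw [h3] at hξ2
    have h4 : b - a ≠ 0 := (sub_pos.2 hab).ne'
    have h5 : K b - K a = 0 := by
      have := (div_eq_zero_iff.1 hξ2.symm)
      rcases this with h | h
      · exact h
      · exact absurd h h4
    linarith
  have hconst : ∀ a ∈ I, ∀ b ∈ I, a < b → K a = K b := by
    intro a ha b hb hab
    have hIcc : Icc a b ⊆ I := hIc.out ha hb
    by_cases hz : ∃ t₀ ∈ Ioo a b, deriv f t₀ = 0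
    · obtain ⟨t₀, ht₀, hzero⟩ := hz
      have ht₀I : t₀ ∈ I := hIcc (Ioo_subset_Icc_self ht₀)
      have h1 : K a = K t₀ := by
        apply hstep a ha t₀ ht₀I ht₀.1
        intro r hr
        have hrI : r ∈ I := hIcc ⟨hr.1.le, hr.2.le.trans ht₀.2.le⟩
        have := hmono hrI ht₀I hr.2
        rw [hzero] at this
        exact this.ne
      have h2 : K t₀ = K b := by
        apply hstep t₀ ht₀I b hb ht₀.2
        intro r hr
        have hrI : r ∈ I := hIcc ⟨ht₀.1.le.trans hr.1.le, hr.2.le⟩
        have := hmono ht₀I hrI hr.1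
        rw [hzero] at this
        exact this.ne'
      exact h1.trans h2
    · apply hstep a ha b hb hab
      intro r hr h0
      exact hz ⟨r, hr, h0⟩
  obtain ⟨t₁, ht₁⟩ := hIn
  refine ⟨K t₁, fun t ht => ⟨hd t ht, ?_⟩⟩
  have : K t = K t₁ := by
    rcases lt_trichotomy t t₁ with h | h | h
    · exact hconst t ht t₁ ht₁ h
    · rw [h]
    · exact (hconst t₁ ht₁ t ht h).symm
  simp only [hK] at this
  simp only [hK]
  linarith

/-- Chord inequality for the homogeneous equation. -/
lemma chord_le_of_subC_zero (hIc : I.OrdConnected) (hf : ContinuousOn f I) (hsub : SubC f I 0)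
    {a m b : ℝ} (ha : a ∈ I) (hb : b ∈ I) (ham : a < m) (hmb : m < b) :
    f m * (b - a) ≤ f a * (b - m) + f b * (m - a) := by
  by_contra hcon
  have hcon := not_le.1 hcon
  have hab : Icc a b ⊆ I := hIc.out ha hb
  have hba : 0 < b - a := by linarith
  set l := (f b - f a) / (b - a) with hl
  have hlmul : l * (b - a) = f b - f a := by
    rw [hl]; field_simp
  set η := f m - f a - l * (m - a) with hη
  have hηpos : 0 < η := by
    have h2 : η * (b - a) = f m * (b - a) - (f a * (b - m) + f b * (m - a)) := by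
      rw [hη]
      have : l * (m - a) * (b - a) = (f b - f a) * (m - a) := by rw [← hlmul]; ring
      ring_nf
      ring_nf at this
      linarith
    have h3 : 0 < η * (b - a) := by rw [h2]; linarith
    exact (pos_iff_pos_of_mul_pos h3).2 hba
  -- tilt so that the slope is nonzero
  obtain ⟨β, hβ1, hβ2⟩ : ∃ β : ℝ, l + β ≠ 0 ∧ |β| * (b - a) ≤ η / 4 := by
    by_cases hl0 : l = 0
    · refine ⟨η / (4 * (b - a)), ?_, ?_⟩
      · rw [hl0, zero_add]; positivity
      · rw [abs_of_pos (by positivity)]
        apply le_of_eq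
        field_simp
    · exact ⟨0, by simpa using hl0, by simp; positivity⟩
  set l' := l + β with hl'
  have hl'pos : 0 < |l'| := abs_pos.2 hβ1
  set κ := min (η / (8 * (b - a) ^ 2)) (|l'| / (4 * (b - a))) with hκ
  have hκpos : 0 < κ := lt_min (by positivity) (by positivity)
  have hκ1 : κ * (b - a) ^ 2 ≤ η / 8 := by
    have h1 : κ ≤ η / (8 * (b - a) ^ 2) := min_le_left _ _
    have h2 := mul_le_mul_of_nonneg_right h1 (sq_nonneg (b - a))
    have e : η / (8 * (b - a) ^ 2) * (b - a) ^ 2 = η / 8 := by field_simp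
    linarith
  have hκ2 : 2 * κ * (b - a) < |l'| := by
    have h1 : κ ≤ |l'| / (4 * (b - a)) := min_le_right _ _
    have h2 := mul_le_mul_of_nonneg_right h1 hba.le
    have e : |l'| / (4 * (b - a)) * (b - a) = |l'| / 4 := by field_simp
    nlinarith
  set H : ℝ → ℝ := fun s => f s - (f a + l' * (s - a) + (-κ) * (s - m) ^ 2) with hH
  have hHc : ContinuousOn H (Icc a b) := by
    apply ContinuousOn.sub (hf.mono hab)
    fun_prop
  have hβabs : β * (b - a) ≤ η / 4 := by
    have := le_abs_self β
    nlinarith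
  have hβabs' : - β * (b - a) ≤ η / 4 := by
    have := neg_abs_le β
    nlinarith
  have hma : 0 < m - a := by linarith
  have hbm : 0 < b - m := by linarith
  have hHm : 3 * η / 4 ≤ H m := by
    have e : H m = η - β * (m - a) := by
      simp only [hH, hl', hη]; ring
    rw [e]
    have h1 : |β * (m - a)| ≤ η / 4 := by
      rw [abs_mul, abs_of_pos hma]
      have h2 : |β| * (m - a) ≤ |β| * (b - a) :=
        mul_le_mul_of_nonneg_left (by linarith) (abs_nonneg _)
      linarith
    have := le_abs_self (β * (m - a))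
    linarith
  have hHa : H a < H m := by
    have e : H a = κ * (a - m) ^ 2 := by
      simp only [hH]; ring
    have h1 : κ * (a - m) ^ 2 ≤ κ * (b - a) ^ 2 :=
      mul_le_mul_of_nonneg_left (by nlinarith) hκpos.le
    rw [e]
    nlinarith
  have hHb : H b < H m := by
    have e : H b = - β * (b - a) + κ * (b - m) ^ 2 := by
      simp only [hH, hl']
      have : f b = f a + l * (b - a) := by rw [hlmul]; ring
      rw [this]
      ring
    have h1 : κ * (b - m) ^ 2 ≤ κ * (b - a) ^ 2 :=
      mul_le_mul_of_nonneg_left (by nlinarith) hκpos.le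
    rw [e]
    nlinarith
  obtain ⟨t, ht, htI, hmax⟩ := exists_interior_localMax hab ⟨ham, hmb⟩ hHc hHa hHb
  have hT := touchAbove_of_isLocalMax hmax
  have h := hsub t htI _ _ hT
  -- the slope at the touching point does not vanish
  have hp : l' + 2 * -κ * (t - m) ≠ 0 := by
    intro h0
    have h1 : |2 * κ * (t - m)| ≤ 2 * κ * (b - a) := by
      rw [abs_mul, abs_of_pos (by positivity : 0 < 2 * κ)]
      apply mul_le_mul_of_nonneg_left _ (by positivity)
      rw [abs_le]
      constructor <;> linarith [ht.1, ht.2]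
    have h2 : l' = 2 * κ * (t - m) := by linarith
    rw [h2] at hκ2
    linarith
  have hp2 : 0 < (l' + 2 * -κ * (t - m)) ^ 2 := by positivity
  nlinarith

/-- A solution of the homogeneous equation is affine. -/
lemma affine_of_zero (hIo : IsOpen I) (hIc : I.OrdConnected) (hIn : I.Nonempty)
    (hf : ContinuousOn f I) (hsub : SubC f I 0) (hsup : SuperC f I 0) :
    ∃ p e : ℝ, ∀ t ∈ I, f t = p * t + e := by
  have hsup' : SubC (fun s => - f s) I 0 := by
    have := subC_neg hsup
    simpa using this
  have hchord : ∀ a ∈ I, ∀ b ∈ I, ∀ m, a < m → m < b →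
      f m * (b - a) = f a * (b - m) + f b * (m - a) := by
    intro a ha b hb m ham hmb
    have h1 := chord_le_of_subC_zero hIc hf hsub ha hb ham hmb
    have h2 := chord_le_of_subC_zero hIc hf.neg hsup' ha hb ham hmb
    simp only [Pi.neg_apply] at h2
    nlinarith
  obtain ⟨m, hm⟩ := hIn
  obtain ⟨ε, hε, hball⟩ := Metric.isOpen_iff.1 hIo m hm
  have h1 : m - ε / 2 ∈ I := hball (by simp [Metric.mem_ball, abs_of_pos, hε])
  have h2 : m + ε / 2 ∈ I := hball (by simp [Metric.mem_ball, abs_of_pos, hε])
  set a₁ := m - ε / 2 with ha₁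
  set a₂ := m + ε / 2 with ha₂
  have h12 : a₁ < a₂ := by rw [ha₁, ha₂]; linarith
  have hdiff : a₂ - a₁ ≠ 0 := (sub_pos.2 h12).ne'
  refine ⟨(f a₂ - f a₁) / (a₂ - a₁), f a₁ - (f a₂ - f a₁) / (a₂ - a₁) * a₁, fun t ht => ?_⟩
  have key : f t * (a₂ - a₁) = f a₁ * (a₂ - t) + f a₂ * (t - a₁) := by
    rcases lt_trichotomy t a₁ with h | h | h
    · have := hchord t ht a₂ h2 a₁ h h12
      linear_combination - this
    · rw [h]; ring
    · rcases lt_trichotomy t a₂ with h' | h' | h'
      · exact hchord a₁ h1 a₂ h2 t h h'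
      · rw [h']; ring
      · have := hchord a₁ h1 t ht a₂ h12 h'
        linear_combination - this
  field_simp
  linear_combination key

/-- Classification for all real constants. -/
theorem classify {c : ℝ} (hIo : IsOpen I) (hIc : I.OrdConnected) (hIn : I.Nonempty)
    (hf : ContinuousOn f I) (hsub : SubC f I c) (hsup : SuperC f I c) :
    ∃ b : ℝ, ∀ t ∈ I, DifferentiableAt ℝ f t ∧ (deriv f t) ^ 3 = 3 * c * t + b := by
  rcases lt_trichotomy c 0 with hc | hc | hc
  · obtain ⟨b, hb⟩ := classify_pos (f := fun s => - f s) (c := - c) hIo hIc hIn hf.neg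
      (by linarith) (subC_neg hsup) (superC_neg hsub)
    refine ⟨- b, fun t ht => ?_⟩
    obtain ⟨h1, h2⟩ := hb t ht
    have h3 : DifferentiableAt ℝ f t := by
      have := h1.neg
      simpa using this
    refine ⟨h3, ?_⟩
    rw [deriv_neg_fun] at h2
    linear_combination - h2
  · subst hc
    obtain ⟨p, e, hpe⟩ := affine_of_zero hIo hIc hIn hf hsub hsup
    refine ⟨p ^ 3, fun t ht => ?_⟩
    have h1 : f =ᶠ[𝓝 t] fun s => p * s + e := by
      filter_upwards [hIo.mem_nhds ht] with s hs using hpe s hs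
    have h2 : HasDerivAt (fun s => p * s + e) p t := by
      have := ((hasDerivAt_id t).const_mul p).add_const e
      simpa using this
    have h3 : HasDerivAt f p t := h2.congr_of_eventuallyEq h1
    refine ⟨h3.differentiableAt, ?_⟩
    rw [h3.deriv]
    ring
  · exact classify_pos hIo hIc hIn hf hc hsub hsup

end Core

end Vale.Agent.Lib.P080
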