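import Mathlib
import Vale.Agent.Lib.P080.Defs
import Vale.Agent.Lib.P080.OneD

/-! Auxiliary calculus on lines for test functions. -/

open Filter Topology Set

namespace Vale.Agent.Lib.P080

variable {d : ℕ}

lemma gradient_apply (φ : EuclideanSpace ℝ (Fin d) → ℝ) (z : EuclideanSpace ℝ (Fin d))
    (i : Fin d) : (gradient φ z) i = fderiv ℝ φ z (EuclideanSpace.single i 1) := by
  rw [← inner_gradient_left (𝕜 := ℝ), EuclideanSpace.inner_single_right]
  simp

lemma coord_line (z v : EuclideanSpace ℝ (Fin d)) (s : ℝ) (i : Fin d) :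
    (z + s • v) i = z i + s * v i := by
  simp

lemma tendsto_line (z v : EuclideanSpace ℝ (Fin d)) :
    Tendsto (fun s : ℝ => z + s • v) (𝓝 0) (𝓝 z) := by
  have h : Continuous (fun s : ℝ => z + s • v) := by fun_prop
  simpa using h.tendsto 0

lemma hasDerivAt_line (z v : EuclideanSpace ℝ (Fin d)) (s : ℝ) :
    HasDerivAt (fun r : ℝ => z + r • v) v s := by
  have h := ((hasDerivAt_id s).smul_const v).const_add z
  simpa using h

lemma line_hasDerivAt {φ : EuclideanSpace ℝ (Fin d) → ℝ} {z : EuclideanSpace ℝ (Fin d)}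
    (hφ : ContDiffAt ℝ 2 φ z) (v : EuclideanSpace ℝ (Fin d)) :
    ∀ᶠ s in 𝓝 (0 : ℝ), HasDerivAt (fun r : ℝ => φ (z + r • v)) (fderiv ℝ φ (z + s • v) v) s := by
  have h1 : ∀ᶠ x in 𝓝 z, ContDiffAt ℝ 2 φ x := hφ.eventually (by simp)
  have h2 := (tendsto_line z v).eventually h1
  filter_upwards [h2] with s hs
  have h3 : HasFDerivAt φ (fderiv ℝ φ (z + s • v)) (z + s • v) :=
    (hs.differentiableAt (by simp)).hasFDerivAt
  exact h3.comp_hasDerivAt s (hasDerivAt_line z v s)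

lemma line_hasDerivAt2 {φ : EuclideanSpace ℝ (Fin d) → ℝ} {z : EuclideanSpace ℝ (Fin d)}
    (hφ : ContDiffAt ℝ 2 φ z) (v : EuclideanSpace ℝ (Fin d)) :
    HasDerivAt (fun s : ℝ => fderiv ℝ φ (z + s • v) v) (fderiv ℝ (fderiv ℝ φ) z v v) 0 := by
  have h1 : ContDiffAt ℝ 1 (fderiv ℝ φ) z := hφ.fderiv_right (by norm_num)
  have h2 : HasFDerivAt (fderiv ℝ φ) (fderiv ℝ (fderiv ℝ φ) z) (z + (0 : ℝ) • v) := by
    simpa using (h1.differentiableAt (by simp)).hasFDerivAt
  have h3 := h2.comp_hasDerivAt (0 : ℝ) (hasDerivAt_line z v 0)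
  have h4 : HasDerivAt (fun s : ℝ => (fderiv ℝ φ ∘ fun r : ℝ => z + r • v) s v)
      ((fderiv ℝ (fderiv ℝ φ) z v) v) 0 := by
    have := h3.clm_apply (hasDerivAt_const (0 : ℝ) v)
    simpa using this
  exact h4

/-- The second order necessary condition at a local maximum along a line. -/
lemma second_order_of_isLocalMax {W W' : ℝ → ℝ} {a : ℝ}
    (hW : ∀ᶠ s in 𝓝 (0 : ℝ), HasDerivAt W (W' s) s) (hW' : HasDerivAt W' a 0)
    (hmax : IsLocalMax W 0) : a ≤ 0 := by
  by_contra hcon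
  have hcon := not_le.1 hcon
  have h0 : W' 0 = 0 := hmax.hasDerivAt_eq_zero hW.self_of_nhds
  have hder : deriv W =ᶠ[𝓝 0] W' := by
    filter_upwards [hW] with s hs using hs.deriv
  have h2 : deriv (deriv W) 0 = a := by
    rw [hder.deriv_eq]
    exact hW'.deriv
  have hmin : IsLocalMin W 0 :=
    isLocalMin_of_deriv_deriv_pos (by rw [h2]; exact hcon) (by rw [hder.self_of_nhds]; exact h0)
      hW.self_of_nhds.continuousAt
  have hconst : ∀ᶠ s in 𝓝 (0 : ℝ), W s = W 0 := by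
    filter_upwards [hmax, hmin] with s h1 h2
    exact le_antisymm h1 h2
  have hzero : W' =ᶠ[𝓝 0] fun _ => (0 : ℝ) := by
    filter_upwards [hW, hconst.eventually_nhds] with s h1 h2
    have h3 : HasDerivAt W 0 s := by
      have : W =ᶠ[𝓝 s] fun _ => W 0 := h2
      exact (hasDerivAt_const s (W 0)).congr_of_eventuallyEq this
    exact h1.unique h3
  have h3 : HasDerivAt W' 0 0 := (hasDerivAt_const (0 : ℝ) (0 : ℝ)).congr_of_eventuallyEq hzero
  have := hW'.unique h3
  linarith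

/-- The derivative of a solution of `y ^ 3 = 3 c t + b` at a point where `y` does not vanish. -/
lemma hasDerivAt_of_cube {y : ℝ → ℝ} {c b z : ℝ} (hy : ∀ᶠ t in 𝓝 z, (y t) ^ 3 = 3 * c * t + b)
    (hz : y z ≠ 0) : HasDerivAt y (c / (y z) ^ 2) z := by
  have hy0 : (y z) ^ 3 = 3 * c * z + b := hy.self_of_nhds
  have hpos : 0 < (y z) ^ 2 := by positivity
  -- the basic identity
  have hid : ∀ᶠ t in 𝓝 z, (y t - y z) * ((y t) ^ 2 + y t * y z + (y z) ^ 2) = 3 * c * (t - z) := by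
    filter_upwards [hy] with t ht
    linear_combination ht - hy0
  have hD : ∀ t, 3 / 4 * (y z) ^ 2 ≤ (y t) ^ 2 + y t * y z + (y z) ^ 2 := by
    intro t
    nlinarith [sq_nonneg (y t + y z / 2)]
  have hcont : ContinuousAt y z := by
    have hK : 0 < 3 / 4 * (y z) ^ 2 := by positivity
    have hle : ∀ᶠ t in 𝓝 z, ‖y t - y z‖ ≤ (3 * |c| / (3 / 4 * (y z) ^ 2)) * |t - z| := by
      filter_upwards [hid] with t ht
      rw [Real.norm_eq_abs, div_mul_eq_mul_div, le_div_iff₀ hK]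
      have h1 : |y t - y z| * ((y t) ^ 2 + y t * y z + (y z) ^ 2) = 3 * |c| * |t - z| := by
        have h2 : 0 ≤ (y t) ^ 2 + y t * y z + (y z) ^ 2 := hK.le.trans (hD t)
        calc |y t - y z| * ((y t) ^ 2 + y t * y z + (y z) ^ 2)
            = |(y t - y z) * ((y t) ^ 2 + y t * y z + (y z) ^ 2)| := by
              rw [abs_mul, abs_of_nonneg h2]
          _ = 3 * |c| * |t - z| := by
              rw [ht, abs_mul, abs_mul]
              norm_num
      have h3 : |y t - y z| * (3 / 4 * (y z) ^ 2) ≤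
          |y t - y z| * ((y t) ^ 2 + y t * y z + (y z) ^ 2) :=
        mul_le_mul_of_nonneg_left (hD t) (abs_nonneg _)
      linarith
    have hlim : Tendsto (fun t : ℝ => (3 * |c| / (3 / 4 * (y z) ^ 2)) * |t - z|) (𝓝 z) (𝓝 0) := by
      have h1 : Continuous (fun t : ℝ => (3 * |c| / (3 / 4 * (y z) ^ 2)) * |t - z|) := by fun_prop
      simpa using h1.tendsto z
    have h0 : Tendsto (fun t => y t - y z) (𝓝 z) (𝓝 0) := squeeze_zero_norm' hle hlim
    have := h0.add_const (y z)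
    simpa [ContinuousAt] using this
  rw [hasDerivAt_iff_tendsto_slope]
  have hDc : ContinuousAt (fun t => (y t) ^ 2 + y t * y z + (y z) ^ 2) z := by fun_prop
  have hlim : Tendsto (fun t => 3 * c / ((y t) ^ 2 + y t * y z + (y z) ^ 2)) (𝓝 z)
      (𝓝 (c / (y z) ^ 2)) := by
    have hne : (y z) ^ 2 + y z * y z + (y z) ^ 2 ≠ 0 := by nlinarith
    have h1 := (continuousAt_const (x := z) (y := 3 * c)).div hDc hne
    have h2 : 3 * c / ((y z) ^ 2 + y z * y z + (y z) ^ 2) = c / (y z) ^ 2 := by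
      field_simp
      ring
    rw [← h2]
    exact h1.tendsto
  refine (hlim.mono_left nhdsWithin_le_nhds).congr' ?_
  have hid' : ∀ᶠ t in 𝓝[≠] z, (y t - y z) * ((y t) ^ 2 + y t * y z + (y z) ^ 2)
      = 3 * c * (t - z) := hid.filter_mono nhdsWithin_le_nhds
  filter_upwards [hid', self_mem_nhdsWithin] with t ht htz
  have h1 : t - z ≠ 0 := sub_ne_zero.2 htz
  have h2 : (y t) ^ 2 + y t * y z + (y z) ^ 2 ≠ 0 := by
    have := hD t
    nlinarith
  rw [slope_def_field, div_eq_div_iff h2 h1]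
  linarith

/-- A function whose slope behaves like the cube root of the distance at a critical point
cannot be touched from above by a twice differentiable function. -/
lemma not_isLocalMax_of_cube {F F' ψ ψ' : ℝ → ℝ} {c L : ℝ} (hc : 0 < c)
    (hF : ∀ᶠ s in 𝓝 (0 : ℝ), HasDerivAt F (F' s) s)
    (hF' : ∀ᶠ s in 𝓝 (0 : ℝ), (F' s) ^ 3 = 3 * c * s)
    (hψ : ∀ᶠ s in 𝓝 (0 : ℝ), HasDerivAt ψ (ψ' s) s)
    (hψ' : HasDerivAt ψ' L 0) (hψ0 : ψ' 0 = 0) :
    ¬ IsLocalMax (fun s => F s - ψ s) 0 := by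
  intro hmax
  -- slope control for ψ'
  have hslope : ∀ᶠ s in 𝓝[>] (0 : ℝ), ψ' s ≤ (|L| + 1) * s := by
    have h1 := hasDerivAt_iff_tendsto_slope.1 hψ'
    have h2 : ∀ᶠ s in 𝓝[≠] (0 : ℝ), slope ψ' 0 s < |L| + 1 :=
      h1.eventually (gt_mem_nhds (by linarith [le_abs_self L]))
    have h3 : ∀ᶠ s in 𝓝[>] (0 : ℝ), slope ψ' 0 s < |L| + 1 :=
      h2.filter_mono (nhdsWithin_mono 0 (fun y hy => ne_of_gt hy))
    filter_upwards [h3, self_mem_nhdsWithin] with s hs hs0
    have hs0' : 0 < s := hs0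
    rw [slope_def_field, hψ0, sub_zero, sub_zero, div_lt_iff₀ hs0'] at hs
    exact hs.le
  set K := |L| + 1 with hK
  have hKpos : 0 < K := by positivity
  have hsmall : ∀ᶠ s in 𝓝[>] (0 : ℝ), K ^ 3 * s ^ 2 < 3 * c := by
    have h1 : Continuous (fun s : ℝ => K ^ 3 * s ^ 2) := by fun_prop
    have h2 : Tendsto (fun s : ℝ => K ^ 3 * s ^ 2) (𝓝 0) (𝓝 0) := by
      simpa using h1.tendsto 0
    exact (h2.eventually (gt_mem_nhds (by positivity))).filter_mono nhdsWithin_le_nhds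
  have hev : ∀ᶠ s in 𝓝[>] (0 : ℝ), HasDerivAt (fun s => F s - ψ s) (F' s - ψ' s) s ∧
      0 < F' s - ψ' s := by
    filter_upwards [hF.filter_mono nhdsWithin_le_nhds, hF'.filter_mono nhdsWithin_le_nhds,
      hψ.filter_mono nhdsWithin_le_nhds, hslope, hsmall, self_mem_nhdsWithin]
      with s h1 h2 h3 h4 h5 h6
    refine ⟨h1.sub h3, ?_⟩
    have hs0 : 0 < s := h6
    have hgt : K * s < F' s := by
      by_contra hle
      have hle := not_lt.1 hle
      have hF0 : 0 < F' s := by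
        by_contra hneg
        have hneg := not_lt.1 hneg
        have : (F' s) ^ 3 ≤ 0 := by
          have := pow_nonneg (neg_nonneg.2 hneg) 3
          nlinarith
        have h7 : 0 < 3 * c * s := by positivity
        linarith
      have h8 : (F' s) ^ 3 ≤ (K * s) ^ 3 := pow_le_pow_left₀ hF0.le hle 3
      rw [h2] at h8
      have h9 : (K * s) ^ 3 = K ^ 3 * s ^ 2 * s := by ring
      rw [h9] at h8
      have h10 : 3 * c ≤ K ^ 3 * s ^ 2 := le_of_mul_le_mul_right (by linarith) hs0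
      linarith
    linarith
  -- combine: choose a good radius
  have hmax' : ∀ᶠ s in 𝓝[>] (0 : ℝ), F s - ψ s ≤ F 0 - ψ 0 := hmax.filter_mono nhdsWithin_le_nhds
  have hev2 : ∀ᶠ s in 𝓝[>] (0 : ℝ), (F s - ψ s ≤ F 0 - ψ 0) ∧
      HasDerivAt (fun s => F s - ψ s) (F' s - ψ' s) s ∧ 0 < F' s - ψ' s := by
    filter_upwards [hmax', hev] with s h1 h2 using ⟨h1, h2⟩
  obtain ⟨ε, hε, hball⟩ := (mem_nhdsGT_iff_exists_Ioo_subset).1 hev2
  -- use a point s with the mean value theorem on the closed interval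
  have hε' : (0 : ℝ) < ε := hε
  set s := ε / 2 with hs
  have hs0 : 0 < s := by positivity
  have hsε : s < ε := by rw [hs]; linarith
  have hcontW : ContinuousOn (fun s => F s - ψ s) (Icc 0 s) := by
    intro r hr
    rcases hr.1.eq_or_lt with h0 | h0
    · subst h0
      have h1 : HasDerivAt (fun s => F s - ψ s) _ 0 := hF.self_of_nhds.sub hψ.self_of_nhds
      exact h1.continuousAt.continuousWithinAt
    · have : r ∈ Ioo 0 ε := ⟨h0, lt_of_le_of_lt hr.2 hsε⟩
      exact (hball this).2.1.continuousAt.continuousWithinAt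
  obtain ⟨r, hr, hr'⟩ := exists_hasDerivAt_eq_slope (fun s => F s - ψ s)
    (fun r => F' r - ψ' r) hs0 hcontW (fun r hr => (hball ⟨hr.1, hr.2.trans hsε⟩).2.1)
  have hrpos := (hball ⟨hr.1, hr.2.trans hsε⟩).2.2
  have hsm := (hball ⟨hs0, hsε⟩).1
  rw [hr'] at hrpos
  have : 0 < (F s - ψ s) - (F 0 - ψ 0) := by
    have e : (s - 0) = s := by ring
    simp only [e] at hrpos
    rw [div_pos_iff_of_pos_right hs0] at hrpos
    exact hrpos
  linarith

end Vale.Agent.Lib.P080
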