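import Mathlib
import Vale.Agent.Lib.P080.Sep1

/-! Sufficiency: the separated profiles solve the equation in the viscosity sense. -/

open Filter Topology Set

namespace Vale.Agent.Lib.P080

variable {d : ℕ}

lemma hasDerivAt_sum_line {f : Fin d → ℝ → ℝ} (z v : EuclideanSpace ℝ (Fin d)) (s : ℝ)
    (h : ∀ j, DifferentiableAt ℝ (f j) (z j + s * v j)) :
    HasDerivAt (fun r : ℝ => ∑ j, f j (z j + r * v j))
      (∑ j, deriv (f j) (z j + s * v j) * v j) s := by
  apply HasDerivAt.fun_sum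
  intro j _
  have h1 : HasDerivAt (fun r : ℝ => z j + r * v j) (v j) s := by
    simpa using ((hasDerivAt_id s).mul_const (v j)).const_add (z j)
  exact (h j).hasDerivAt.comp s h1

lemma eventually_line_mem {I : Fin d → Set ℝ} (hIo : ∀ i, IsOpen (I i))
    {z : EuclideanSpace ℝ (Fin d)} (hz : ∀ i, z i ∈ I i) (v : EuclideanSpace ℝ (Fin d)) :
    ∀ᶠ s in 𝓝 (0 : ℝ), ∀ j, z j + s * v j ∈ I j := by
  rw [Filter.eventually_all]
  intro j
  have h1 : Continuous (fun s : ℝ => z j + s * v j) := by fun_prop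
  have h2 : Tendsto (fun s : ℝ => z j + s * v j) (𝓝 0) (𝓝 (z j)) := by
    simpa using h1.tendsto 0
  exact h2.eventually ((hIo j).mem_nhds (hz j))

lemma sum_single_mul (a : Fin d → ℝ) (i : Fin d) :
    ∑ j, a j * (EuclideanSpace.single i (1 : ℝ)) j = a i := by
  rw [Finset.sum_eq_single i]
  · simp
  · intro j _ hj
    simp [hj]
  · simp

section Core

variable {I : Fin d → Set ℝ} {f : Fin d → ℝ → ℝ} {c b : Fin d → ℝ}
  {φ : EuclideanSpace ℝ (Fin d) → ℝ} {z : EuclideanSpace ℝ (Fin d)}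

lemma line_W_hasDerivAt (hIo : ∀ i, IsOpen (I i))
    (hf : ∀ i, ∀ t ∈ I i, DifferentiableAt ℝ (f i) t)
    (hz : ∀ i, z i ∈ I i) (hφ : ContDiffAt ℝ 2 φ z) (v : EuclideanSpace ℝ (Fin d)) :
    ∀ᶠ s in 𝓝 (0 : ℝ), HasDerivAt (fun r : ℝ => (∑ j, f j (z j + r * v j)) - φ (z + r • v))
      ((∑ j, deriv (f j) (z j + s * v j) * v j) - fderiv ℝ φ (z + s • v) v) s := by
  filter_upwards [eventually_line_mem hIo hz v, line_hasDerivAt hφ v] with s h1 h2
  exact (hasDerivAt_sum_line z v s (fun j => hf j _ (h1 j))).sub h2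

lemma line_W_isLocalMax
    (hmax : IsLocalMax (fun x : EuclideanSpace ℝ (Fin d) => (∑ i, f i (x i)) - φ x) z)
    (v : EuclideanSpace ℝ (Fin d)) :
    IsLocalMax (fun r : ℝ => (∑ j, f j (z j + r * v j)) - φ (z + r • v)) 0 := by
  have h1 := (tendsto_line z v).eventually hmax
  unfold IsLocalMax IsMaxFilter
  filter_upwards [h1] with s hs
  simpa [coord_line] using hs

lemma slope_eq_gradient (hIo : ∀ i, IsOpen (I i))
    (hf : ∀ i, ∀ t ∈ I i, DifferentiableAt ℝ (f i) t)
    (hz : ∀ i, z i ∈ I i) (hφ : ContDiffAt ℝ 2 φ z)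
    (hmax : IsLocalMax (fun x : EuclideanSpace ℝ (Fin d) => (∑ i, f i (x i)) - φ x) z)
    (i : Fin d) : deriv (f i) (z i) = gradient φ z i := by
  have h1 := (line_W_hasDerivAt hIo hf hz hφ (EuclideanSpace.single i (1 : ℝ))).self_of_nhds
  have h2 := (line_W_isLocalMax hmax (EuclideanSpace.single i (1 : ℝ))).hasDerivAt_eq_zero h1
  rw [gradient_apply]
  simp only [zero_mul, add_zero, zero_smul] at h2
  rw [sum_single_mul (fun j => deriv (f j) (z j)) i] at h2
  linarith

lemma nonpos_of_slope_zero (hIo : ∀ i, IsOpen (I i))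
    (hf : ∀ i, ∀ t ∈ I i, DifferentiableAt ℝ (f i) t ∧ (deriv (f i) t) ^ 3 = 3 * c i * t + b i)
    (hz : ∀ i, z i ∈ I i) (hφ : ContDiffAt ℝ 2 φ z)
    (hmax : IsLocalMax (fun x : EuclideanSpace ℝ (Fin d) => (∑ i, f i (x i)) - φ x) z)
    (i : Fin d) (hg : gradient φ z i = 0) : c i ≤ 0 := by
  by_contra hcon
  have hc := not_le.1 hcon
  have hdf : ∀ i, ∀ t ∈ I i, DifferentiableAt ℝ (f i) t := fun i t ht => (hf i t ht).1
  have hslope := slope_eq_gradient hIo hdf hz hφ hmax i
  rw [hg] at hslope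
  set v : EuclideanSpace ℝ (Fin d) := EuclideanSpace.single i (1 : ℝ) with hv
  have hbase : 3 * c i * z i + b i = 0 := by
    have := (hf i _ (hz i)).2
    rw [hslope] at this
    linarith [this]
  refine not_isLocalMax_of_cube (F := fun r => ∑ j, f j (z j + r * v j))
    (F' := fun s => ∑ j, deriv (f j) (z j + s * v j) * v j)
    (ψ := fun r => φ (z + r • v)) (ψ' := fun s => fderiv ℝ φ (z + s • v) v)
    (c := c i) (L := fderiv ℝ (fderiv ℝ φ) z v v) hc ?_ ?_ (line_hasDerivAt hφ v)
    (line_hasDerivAt2 hφ v) ?_ (line_W_isLocalMax hmax v)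
  · filter_upwards [eventually_line_mem hIo hz v] with s h1
    exact hasDerivAt_sum_line z v s (fun j => hdf j _ (h1 j))
  · filter_upwards [eventually_line_mem hIo hz v] with s h1
    rw [hv, sum_single_mul (fun j => deriv (f j) (z j + s * (EuclideanSpace.single i (1 : ℝ)) j)) i]
    have h2 := (hf i _ (h1 i)).2
    have hvi : v i = 1 := by simp [hv]
    rw [hvi] at h2 ⊢
    simp only [mul_one] at h2 ⊢
    rw [h2]
    linear_combination hbase
  · simp only [zero_smul, add_zero]
    rw [← gradient_apply, hg]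

lemma second_order_line (hIo : ∀ i, IsOpen (I i))
    (hf : ∀ i, ∀ t ∈ I i, DifferentiableAt ℝ (f i) t ∧ (deriv (f i) t) ^ 3 = 3 * c i * t + b i)
    (hz : ∀ i, z i ∈ I i) (hφ : ContDiffAt ℝ 2 φ z)
    (hmax : IsLocalMax (fun x : EuclideanSpace ℝ (Fin d) => (∑ i, f i (x i)) - φ x) z) :
    (∑ j, if gradient φ z j = 0 then 0 else c j) ≤ infLap φ z := by
  have hdf : ∀ i, ∀ t ∈ I i, DifferentiableAt ℝ (f i) t := fun i t ht => (hf i t ht).1
  set g := gradient φ z with hg
  have hslope := slope_eq_gradient hIo hdf hz hφ hmax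
  have hterm : ∀ j, HasDerivAt (fun s : ℝ => deriv (f j) (z j + s * g j) * g j)
      (if g j = 0 then 0 else c j) 0 := by
    intro j
    by_cases hj : g j = 0
    · simp only [hj, mul_zero, if_true]
      exact hasDerivAt_const _ _
    · simp only [hj, if_false]
      have hev : ∀ᶠ t in 𝓝 (z j), (deriv (f j) t) ^ 3 = 3 * c j * t + b j := by
        filter_upwards [(hIo j).mem_nhds (hz j)] with t ht using (hf j t ht).2
      have h1 : deriv (f j) (z j) ≠ 0 := by
        rw [hslope j]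
        exact hj
      have h2 := hasDerivAt_of_cube hev h1
      have h3 : HasDerivAt (fun s : ℝ => z j + s * g j) (g j) 0 := by
        simpa using ((hasDerivAt_id (0 : ℝ)).mul_const (g j)).const_add (z j)
      have h2' : HasDerivAt (deriv (f j)) (c j / (deriv (f j) (z j)) ^ 2) (z j + (0 : ℝ) * g j) := by
        simpa using h2
      have h4 := (h2'.comp (0 : ℝ) h3).mul_const (g j)
      refine h4.congr_deriv ?_
      rw [hslope j, ← hg]
      field_simp
  have hW' : HasDerivAt (fun s : ℝ => (∑ j, deriv (f j) (z j + s * g j) * g j)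
      - fderiv ℝ φ (z + s • g) g)
      ((∑ j, if g j = 0 then 0 else c j) - fderiv ℝ (fderiv ℝ φ) z g g) 0 := by
    refine HasDerivAt.sub ?_ (line_hasDerivAt2 hφ g)
    apply HasDerivAt.fun_sum
    intro j _
    exact hterm j
  have := second_order_of_isLocalMax (line_W_hasDerivAt hIo hdf hz hφ g) hW'
    (line_W_isLocalMax hmax g)
  unfold infLap
  linarith

theorem core_max (hIo : ∀ i, IsOpen (I i)) (hsum : ∑ i, c i = 0)
    (hf : ∀ i, ∀ t ∈ I i, DifferentiableAt ℝ (f i) t ∧ (deriv (f i) t) ^ 3 = 3 * c i * t + b i)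
    (hz : ∀ i, z i ∈ I i) (hφ : ContDiffAt ℝ 2 φ z)
    (hmax : IsLocalMax (fun x : EuclideanSpace ℝ (Fin d) => (∑ i, f i (x i)) - φ x) z) :
    0 ≤ infLap φ z := by
  have h1 := second_order_line hIo hf hz hφ hmax
  have h2 : ∑ i, c i ≤ ∑ j, if gradient φ z j = 0 then 0 else c j := by
    apply Finset.sum_le_sum
    intro j _
    by_cases hj : gradient φ z j = 0
    · simp only [hj, if_true]
      exact nonpos_of_slope_zero hIo hf hz hφ hmax j hj
    · simp [hj]
  linarith

end Core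

lemma infLap_neg (φ : EuclideanSpace ℝ (Fin d) → ℝ) (z : EuclideanSpace ℝ (Fin d)) :
    infLap (fun x => - φ x) z = - infLap φ z := by
  unfold infLap
  have h1 : fderiv ℝ (fun x => - φ x) = fun x => - fderiv ℝ φ x := by
    funext x
    exact fderiv_fun_neg
  have h2 : gradient (fun x => - φ x) z = - gradient φ z := by
    unfold gradient
    rw [h1]
    simp
  rw [h1, h2, fderiv_fun_neg]
  simp

lemma contDiffAt_neg' {φ : EuclideanSpace ℝ (Fin d) → ℝ} {z : EuclideanSpace ℝ (Fin d)}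
    (hφ : ContDiffAt ℝ 2 φ z) : ContDiffAt ℝ 2 (fun x => - φ x) z := hφ.neg

/-- The separated profiles give viscosity solutions. -/
theorem isInfHarmonic_of_profiles {I : Fin d → Set ℝ} {f : Fin d → ℝ → ℝ} {c b : Fin d → ℝ}
    (hIo : ∀ i, IsOpen (I i)) (hsum : ∑ i, c i = 0)
    (hf : ∀ i, ∀ t ∈ I i, DifferentiableAt ℝ (f i) t ∧ (deriv (f i) t) ^ 3 = 3 * c i * t + b i) :
    IsInfHarmonic (fun x : EuclideanSpace ℝ (Fin d) => ∑ i, f i (x i)) {x | ∀ i, x i ∈ I i} := by
  refine ⟨?_, ?_⟩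
  · apply continuousOn_finsetSum
    intro i _
    have h1 : ContinuousOn (f i) (I i) := fun t ht => (hf i t ht).1.continuousAt.continuousWithinAt
    have h2 : Continuous (fun x : EuclideanSpace ℝ (Fin d) => x i) := by fun_prop
    exact h1.comp h2.continuousOn (fun x hx => hx i)
  · intro φ z hz hφ
    refine ⟨fun hmax => core_max hIo hsum hf hz hφ hmax, fun hmin => ?_⟩
    have hf' : ∀ i, ∀ t ∈ I i, DifferentiableAt ℝ (fun s => - f i s) t ∧
        (deriv (fun s => - f i s) t) ^ 3 = 3 * (- c i) * t + (- b i) := by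
      intro i t ht
      obtain ⟨h1, h2⟩ := hf i t ht
      refine ⟨h1.neg, ?_⟩
      rw [deriv_neg_fun]
      linear_combination - h2
    have hsum' : ∑ i, - c i = 0 := by
      rw [Finset.sum_neg_distrib, hsum, neg_zero]
    have hmax' : IsLocalMax (fun x : EuclideanSpace ℝ (Fin d) =>
        (∑ i, (fun s => - f i s) (x i)) - (fun x => - φ x) x) z := by
      have := hmin.neg
      refine this.congr ?_
      filter_upwards with x
      simp only [Finset.sum_neg_distrib]
      ring
    have := core_max (f := fun i s => - f i s) (c := fun i => - c i) (b := fun i => - b i)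
      hIo hsum' hf' hz hφ.neg hmax'
    rw [infLap_neg] at this
    linarith

end Vale.Agent.Lib.P080
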