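import Mathlib
import Vale.Agent.Lib.P080.Sep2

/-! Necessity: a separated viscosity solution has the stated profiles. -/

open Filter Topology Set

namespace Vale.Agent.Lib.P080

variable {d : ℕ}

/-- The separated quadratic test functions. -/
noncomputable def quadTest (z : EuclideanSpace ℝ (Fin d)) (p X : Fin d → ℝ)
    (x : EuclideanSpace ℝ (Fin d)) : ℝ :=
  ∑ i, (p i * (x i - z i) + X i / 2 * (x i - z i) ^ 2)

lemma quadTest_hasFDerivAt (z : EuclideanSpace ℝ (Fin d)) (p X : Fin d → ℝ)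
    (x : EuclideanSpace ℝ (Fin d)) :
    HasFDerivAt (quadTest z p X)
      (∑ i, (p i + X i * (x i - z i)) • (EuclideanSpace.proj i : EuclideanSpace ℝ (Fin d) →L[ℝ] ℝ))
      x := by
  unfold quadTest
  apply HasFDerivAt.fun_sum
  intro i _
  have h1 : HasFDerivAt (fun x : EuclideanSpace ℝ (Fin d) => x i - z i)
      (EuclideanSpace.proj i : EuclideanSpace ℝ (Fin d) →L[ℝ] ℝ) x := by
    have := ((EuclideanSpace.proj i : EuclideanSpace ℝ (Fin d) →L[ℝ] ℝ).hasFDerivAt
      (x := x)).sub_const (z i)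
    simpa using this
  have h2 := (h1.const_mul (p i)).add ((h1.pow 2).const_mul (X i / 2))
  refine h2.congr_fderiv ?_
  ext v
  simp only [_root_.add_apply, _root_.smul_apply, smul_eq_mul]
  simp
  ring

lemma quadTest_fderiv (z : EuclideanSpace ℝ (Fin d)) (p X : Fin d → ℝ) :
    fderiv ℝ (quadTest z p X) = fun x =>
      ∑ i, (p i + X i * (x i - z i)) •
        (EuclideanSpace.proj i : EuclideanSpace ℝ (Fin d) →L[ℝ] ℝ) := by
  funext x
  exact (quadTest_hasFDerivAt z p X x).fderiv

lemma quadTest_contDiff (z : EuclideanSpace ℝ (Fin d)) (p X : Fin d → ℝ) :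
    ContDiff ℝ 2 (quadTest z p X) := by
  unfold quadTest
  apply ContDiff.sum
  intro i _
  have h1 : ContDiff ℝ 2 (fun x : EuclideanSpace ℝ (Fin d) => x i) :=
    (EuclideanSpace.proj i : EuclideanSpace ℝ (Fin d) →L[ℝ] ℝ).contDiff
  exact (contDiff_const.mul (h1.sub contDiff_const)).add
    (contDiff_const.mul ((h1.sub contDiff_const).pow 2))

lemma quadTest_gradient (z : EuclideanSpace ℝ (Fin d)) (p X : Fin d → ℝ) (i : Fin d) :
    gradient (quadTest z p X) z i = p i := by
  rw [gradient_apply, quadTest_fderiv]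
  simp only [sub_self, mul_zero, add_zero, _root_.sum_apply,
    _root_.smul_apply, smul_eq_mul]
  rw [Finset.sum_eq_single i]
  · simp
  · intro j _ hj
    simp [hj]
  · simp

lemma quadTest_infLap (z : EuclideanSpace ℝ (Fin d)) (p X : Fin d → ℝ) :
    infLap (quadTest z p X) z = ∑ i, p i ^ 2 * X i := by
  unfold infLap
  rw [quadTest_fderiv]
  have h : HasFDerivAt (fun x : EuclideanSpace ℝ (Fin d) =>
      ∑ i, (p i + X i * (x i - z i)) •
        (EuclideanSpace.proj i : EuclideanSpace ℝ (Fin d) →L[ℝ] ℝ))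
      (∑ i, (X i • (EuclideanSpace.proj i : EuclideanSpace ℝ (Fin d) →L[ℝ] ℝ)).smulRight
        (EuclideanSpace.proj i : EuclideanSpace ℝ (Fin d) →L[ℝ] ℝ)) z := by
    apply HasFDerivAt.fun_sum
    intro i _
    have h1 : HasFDerivAt (fun x : EuclideanSpace ℝ (Fin d) => x i - z i)
        (EuclideanSpace.proj i : EuclideanSpace ℝ (Fin d) →L[ℝ] ℝ) z := by
      have := ((EuclideanSpace.proj i : EuclideanSpace ℝ (Fin d) →L[ℝ] ℝ).hasFDerivAt
        (x := z)).sub_const (z i)
      simpa using this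
    have h2 := (h1.const_mul (X i)).const_add (p i)
    exact h2.smul_const (EuclideanSpace.proj i : EuclideanSpace ℝ (Fin d) →L[ℝ] ℝ)
  rw [h.fderiv]
  simp only [_root_.sum_apply, ContinuousLinearMap.smulRight_apply,
    _root_.smul_apply, smul_eq_mul]
  apply Finset.sum_congr rfl
  intro i _
  have h1 : (EuclideanSpace.proj i : EuclideanSpace ℝ (Fin d) →L[ℝ] ℝ)
      (gradient (quadTest z p X) z) = p i := quadTest_gradient z p X i
  rw [h1]
  ring

section Necessity

variable {I : Fin d → Set ℝ} {f : Fin d → ℝ → ℝ}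

lemma coord_tendsto (z : EuclideanSpace ℝ (Fin d)) (i : Fin d) :
    ContinuousAt (fun x : EuclideanSpace ℝ (Fin d) => x i) z := by
  have h1 : Continuous (fun x : EuclideanSpace ℝ (Fin d) => x i) := by fun_prop
  exact h1.continuousAt

/-- Jets in every coordinate combine to a test function from above. -/
lemma sum_nonneg_of_touchAbove
    (h : IsInfHarmonic (fun x : EuclideanSpace ℝ (Fin d) => ∑ i, f i (x i)) {x | ∀ i, x i ∈ I i})
    {z : EuclideanSpace ℝ (Fin d)} (hz : ∀ i, z i ∈ I i) {p X : Fin d → ℝ}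
    (hT : ∀ i, TouchAbove (f i) (z i) (p i) (X i)) : 0 ≤ ∑ i, p i ^ 2 * X i := by
  have hmax : IsLocalMax (fun x : EuclideanSpace ℝ (Fin d) =>
      (∑ i, f i (x i)) - quadTest z p X x) z := by
    have h1 : ∀ᶠ x in 𝓝 z, ∀ i, f i (x i) - (p i * (x i - z i) + X i / 2 * (x i - z i) ^ 2)
        ≤ f i (z i) - (p i * (z i - z i) + X i / 2 * (z i - z i) ^ 2) := by
      rw [Filter.eventually_all]
      intro i
      exact (coord_tendsto z i).eventually (hT i)
    unfold IsLocalMax IsMaxFilter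
    filter_upwards [h1] with x hx
    unfold quadTest
    rw [← Finset.sum_sub_distrib, ← Finset.sum_sub_distrib]
    exact Finset.sum_le_sum (fun i _ => hx i)
  have := (h.2 (quadTest z p X) z hz ((quadTest_contDiff z p X).contDiffAt)).1 hmax
  rwa [quadTest_infLap] at this

lemma sum_nonpos_of_touchBelow
    (h : IsInfHarmonic (fun x : EuclideanSpace ℝ (Fin d) => ∑ i, f i (x i)) {x | ∀ i, x i ∈ I i})
    {z : EuclideanSpace ℝ (Fin d)} (hz : ∀ i, z i ∈ I i) {p X : Fin d → ℝ}
    (hT : ∀ i, TouchBelow (f i) (z i) (p i) (X i)) : ∑ i, p i ^ 2 * X i ≤ 0 := by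
  have hmin : IsLocalMin (fun x : EuclideanSpace ℝ (Fin d) =>
      (∑ i, f i (x i)) - quadTest z p X x) z := by
    have h1 : ∀ᶠ x in 𝓝 z, ∀ i, f i (z i) - (p i * (z i - z i) + X i / 2 * (z i - z i) ^ 2)
        ≤ f i (x i) - (p i * (x i - z i) + X i / 2 * (x i - z i) ^ 2) := by
      rw [Filter.eventually_all]
      intro i
      exact (coord_tendsto z i).eventually (hT i)
    unfold IsLocalMin IsMinFilter
    filter_upwards [h1] with x hx
    unfold quadTest
    rw [← Finset.sum_sub_distrib, ← Finset.sum_sub_distrib]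
    exact Finset.sum_le_sum (fun i _ => hx i)
  have := (h.2 (quadTest z p X) z hz ((quadTest_contDiff z p X).contDiffAt)).2 hmin
  rwa [quadTest_infLap] at this

/-- Continuity of the profiles. -/
lemma continuousOn_profile (hIn : ∀ i, (I i).Nonempty)
    (h : IsInfHarmonic (fun x : EuclideanSpace ℝ (Fin d) => ∑ i, f i (x i)) {x | ∀ i, x i ∈ I i})
    (i : Fin d) : ContinuousOn (f i) (I i) := by
  choose a ha using hIn
  -- the line through `a` in direction `i`
  set γ : ℝ → EuclideanSpace ℝ (Fin d) := fun s => WithLp.toLp 2 (Function.update a i s) with hγ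
  have hγc : Continuous γ := by
    have h1 : Continuous (fun s : ℝ => Function.update a i s) :=
      continuous_const.update i continuous_id
    exact (PiLp.continuous_toLp 2 _).comp h1
  have hγm : ∀ s ∈ I i, γ s ∈ {x : EuclideanSpace ℝ (Fin d) | ∀ i, x i ∈ I i} := by
    intro s hs j
    by_cases hj : j = i
    · subst hj
      simpa [hγ] using hs
    · simpa [hγ, Function.update_of_ne hj] using ha j
  have h1 : ContinuousOn (fun s => (∑ j, f j (γ s j))) (I i) :=
    h.1.comp hγc.continuousOn hγm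
  have h2 : ContinuousOn (fun s => (∑ j, f j (γ s j)) - ∑ j ∈ Finset.univ.erase i, f j (a j)) (I i) :=
    h1.sub continuousOn_const
  refine h2.congr ?_
  intro s _
  show f i s = (∑ j, f j (γ s j)) - ∑ j ∈ Finset.univ.erase i, f j (a j)
  rw [← Finset.add_sum_erase _ _ (Finset.mem_univ i)]
  have h3 : ∑ j ∈ Finset.univ.erase i, f j (γ s j) = ∑ j ∈ Finset.univ.erase i, f j (a j) := by
    apply Finset.sum_congr rfl
    intro j hj
    have hj' : j ≠ i := Finset.ne_of_mem_erase hj
    simp [hγ, Function.update_of_ne hj']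
  rw [h3]
  simp [hγ]

/-- The values `p ^ 2 X` of jets from above. -/
def jetsAbove (f : ℝ → ℝ) (I : Set ℝ) : Set ℝ :=
  {a | ∃ t ∈ I, ∃ p X : ℝ, TouchAbove f t p X ∧ a = p ^ 2 * X}

/-- The values `p ^ 2 X` of jets from below. -/
def jetsBelow (f : ℝ → ℝ) (I : Set ℝ) : Set ℝ :=
  {a | ∃ t ∈ I, ∃ p X : ℝ, TouchBelow f t p X ∧ a = p ^ 2 * X}

lemma sum_nonneg_of_jetsAbove
    (h : IsInfHarmonic (fun x : EuclideanSpace ℝ (Fin d) => ∑ i, f i (x i)) {x | ∀ i, x i ∈ I i})
    (a : Fin d → ℝ) (ha : ∀ i, a i ∈ jetsAbove (f i) (I i)) : 0 ≤ ∑ i, a i := by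
  choose t ht p X hT hEq using ha
  have := sum_nonneg_of_touchAbove (z := WithLp.toLp 2 t) (p := p) (X := X) h
    (by simpa using ht) (by simpa using hT)
  calc 0 ≤ ∑ i, p i ^ 2 * X i := this
    _ = ∑ i, a i := Finset.sum_congr rfl (fun i _ => (hEq i).symm)

lemma sum_nonpos_of_jetsBelow
    (h : IsInfHarmonic (fun x : EuclideanSpace ℝ (Fin d) => ∑ i, f i (x i)) {x | ∀ i, x i ∈ I i})
    (a : Fin d → ℝ) (ha : ∀ i, a i ∈ jetsBelow (f i) (I i)) : ∑ i, a i ≤ 0 := by
  choose t ht p X hT hEq using ha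
  have := sum_nonpos_of_touchBelow (z := WithLp.toLp 2 t) (p := p) (X := X) h
    (by simpa using ht) (by simpa using hT)
  calc ∑ i, a i = ∑ i, p i ^ 2 * X i := Finset.sum_congr rfl (fun i _ => hEq i)
    _ ≤ 0 := this

theorem profiles_of_isInfHarmonic (hIo : ∀ i, IsOpen (I i)) (hIc : ∀ i, (I i).OrdConnected)
    (hIn : ∀ i, (I i).Nonempty)
    (h : IsInfHarmonic (fun x : EuclideanSpace ℝ (Fin d) => ∑ i, f i (x i)) {x | ∀ i, x i ∈ I i}) :
    ∃ c b : Fin d → ℝ, ∑ i, c i = 0 ∧
      ∀ i, ∀ t ∈ I i, DifferentiableAt ℝ (f i) t ∧ (deriv (f i) t) ^ 3 = 3 * c i * t + b i := by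
  have hcont := continuousOn_profile hIn h
  -- nonemptiness
  have hne₁ : ∀ i, (jetsAbove (f i) (I i)).Nonempty := by
    intro i
    obtain ⟨t, ht, p, X, hT⟩ := exists_touchAbove (hIo i) (hIc i) (hIn i) (hcont i)
    exact ⟨_, t, ht, p, X, hT, rfl⟩
  have hne₂ : ∀ i, (jetsBelow (f i) (I i)).Nonempty := by
    intro i
    obtain ⟨t, ht, p, X, hT⟩ := exists_touchBelow (hIo i) (hIc i) (hIn i) (hcont i)
    exact ⟨_, t, ht, p, X, hT, rfl⟩
  choose a₀ ha₀ using hne₁
  choose b₀ hb₀ using hne₂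
  -- boundedness
  have hbdd₁ : ∀ i, BddBelow (jetsAbove (f i) (I i)) := by
    intro i
    refine ⟨- ∑ j ∈ Finset.univ.erase i, a₀ j, fun a ha => ?_⟩
    have h1 := sum_nonneg_of_jetsAbove h (Function.update a₀ i a) (by
      intro j
      by_cases hj : j = i
      · subst hj
        simpa using ha
      · simpa [Function.update_of_ne hj] using ha₀ j)
    rw [← Finset.add_sum_erase _ _ (Finset.mem_univ i)] at h1
    have h3 : ∑ j ∈ Finset.univ.erase i, Function.update a₀ i a j
        = ∑ j ∈ Finset.univ.erase i, a₀ j := by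
      apply Finset.sum_congr rfl
      intro j hj
      simp [Function.update_of_ne (Finset.ne_of_mem_erase hj)]
    rw [h3] at h1
    simp only [Function.update_self] at h1
    linarith
  have hbdd₂ : ∀ i, BddAbove (jetsBelow (f i) (I i)) := by
    intro i
    refine ⟨- ∑ j ∈ Finset.univ.erase i, b₀ j, fun a ha => ?_⟩
    have h1 := sum_nonpos_of_jetsBelow h (Function.update b₀ i a) (by
      intro j
      by_cases hj : j = i
      · subst hj
        simpa using ha
      · simpa [Function.update_of_ne hj] using hb₀ j)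
    rw [← Finset.add_sum_erase _ _ (Finset.mem_univ i)] at h1
    have h3 : ∑ j ∈ Finset.univ.erase i, Function.update b₀ i a j
        = ∑ j ∈ Finset.univ.erase i, b₀ j := by
      apply Finset.sum_congr rfl
      intro j hj
      simp [Function.update_of_ne (Finset.ne_of_mem_erase hj)]
    rw [h3] at h1
    simp only [Function.update_self] at h1
    linarith
  set α : Fin d → ℝ := fun i => sInf (jetsAbove (f i) (I i)) with hα
  set β : Fin d → ℝ := fun i => sSup (jetsBelow (f i) (I i)) with hβ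
  have hsub : ∀ i, SubC (f i) (I i) (α i) := by
    intro i t ht p X hT
    exact csInf_le (hbdd₁ i) ⟨t, ht, p, X, hT, rfl⟩
  have hsup : ∀ i, SuperC (f i) (I i) (β i) := by
    intro i t ht p X hT
    exact le_csSup (hbdd₂ i) ⟨t, ht, p, X, hT, rfl⟩
  have hαβ : ∀ i, α i ≤ β i := fun i =>
    le_of_subC_superC (hIo i) (hIc i) (hIn i) (hcont i) (hsub i) (hsup i)
  -- the sums
  have hsumα : 0 ≤ ∑ i, α i := by
    refine le_of_forall_pos_le_add (fun ε hε => ?_)
    set δ := ε / (Fintype.card (Fin d) + 1) with hδ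
    have hδpos : 0 < δ := by positivity
    have hlt : ∀ i, ∃ a ∈ jetsAbove (f i) (I i), a < α i + δ := fun i =>
      exists_lt_of_csInf_lt ⟨a₀ i, ha₀ i⟩ (by simp only [hα]; linarith)
    choose a ha hlt' using hlt
    have h1 := sum_nonneg_of_jetsAbove h a ha
    have h2 : ∑ i, a i ≤ ∑ i, (α i + δ) := Finset.sum_le_sum (fun i _ => (hlt' i).le)
    rw [Finset.sum_add_distrib, Finset.sum_const, Finset.card_univ, nsmul_eq_mul] at h2
    have h3 : (Fintype.card (Fin d) : ℝ) * δ ≤ ε := by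
      rw [hδ, ← mul_div_assoc, div_le_iff₀ (by positivity)]
      nlinarith
    linarith
  have hsumβ : ∑ i, β i ≤ 0 := by
    by_contra hcon
    have hcon := not_le.1 hcon
    set ε := ∑ i, β i with hε
    set δ := ε / (Fintype.card (Fin d) + 1) with hδ
    have hδpos : 0 < δ := by positivity
    have hlt : ∀ i, ∃ a ∈ jetsBelow (f i) (I i), β i - δ < a := fun i =>
      exists_lt_of_lt_csSup ⟨b₀ i, hb₀ i⟩ (by simp only [hβ]; linarith)
    choose a ha hlt' using hlt
    have h1 := sum_nonpos_of_jetsBelow h a ha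
    have h2 : ∑ i, (β i - δ) ≤ ∑ i, a i := Finset.sum_le_sum (fun i _ => (hlt' i).le)
    rw [Finset.sum_sub_distrib, Finset.sum_const, Finset.card_univ, nsmul_eq_mul] at h2
    have h3 : (Fintype.card (Fin d) : ℝ) * δ < ε := by
      rw [hδ, ← mul_div_assoc, div_lt_iff₀ (by positivity)]
      nlinarith
    linarith
  have hαeq : ∀ i, α i = β i := by
    have h1 : ∑ i, α i = ∑ i, β i :=
      le_antisymm ((Finset.sum_le_sum (fun i _ => hαβ i))) (hsumβ.trans hsumα)
    have h2 := (Finset.sum_eq_sum_iff_of_le (s := Finset.univ) (fun i _ => hαβ i)).1 h1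
    exact fun i => h2 i (Finset.mem_univ i)
  have hsup' : ∀ i, SuperC (f i) (I i) (α i) := fun i => by
    rw [hαeq i]
    exact hsup i
  have hb : ∀ i, ∃ b : ℝ, ∀ t ∈ I i, DifferentiableAt ℝ (f i) t ∧
      (deriv (f i) t) ^ 3 = 3 * α i * t + b := fun i =>
    classify (hIo i) (hIc i) (hIn i) (hcont i) (hsub i) (hsup' i)
  choose b hb using hb
  refine ⟨α, b, ?_, hb⟩
  have h1 : ∑ i, α i = ∑ i, β i :=
    Finset.sum_congr rfl (fun i _ => hαeq i)
  linarith

end Necessity

end Vale.Agent.Lib.P080
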