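import Mathlib
import Vale.Agent.Lib.P080.Sep3

/-! Regularity and the oscillation estimate for the separated solutions. -/

open Filter Topology Set

namespace Vale.Agent.Lib.P080

variable {d : ℕ}

lemma cube_diff_le (p q : ℝ) : |p - q| ^ 3 ≤ 4 * |p ^ 3 - q ^ 3| := by
  rcases le_total q p with h | h
  · have h1 : 0 ≤ p - q := sub_nonneg.2 h
    have h2 : 0 ≤ p ^ 3 - q ^ 3 := by
      have : p ^ 3 - q ^ 3 = (p - q) * (p ^ 2 + p * q + q ^ 2) := by ring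
      rw [this]
      exact mul_nonneg h1 (by nlinarith [sq_nonneg (p + q), sq_nonneg p, sq_nonneg q])
    rw [abs_of_nonneg h1, abs_of_nonneg h2]
    nlinarith [mul_nonneg h1 (sq_nonneg (p + q))]
  · have h1 : 0 ≤ q - p := sub_nonneg.2 h
    have h2 : 0 ≤ q ^ 3 - p ^ 3 := by
      have : q ^ 3 - p ^ 3 = (q - p) * (q ^ 2 + q * p + p ^ 2) := by ring
      rw [this]
      exact mul_nonneg h1 (by nlinarith [sq_nonneg (p + q), sq_nonneg p, sq_nonneg q])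
    rw [abs_sub_comm p q, abs_sub_comm (p ^ 3) (q ^ 3), abs_of_nonneg h1, abs_of_nonneg h2]
    nlinarith [mul_nonneg h1 (sq_nonneg (p + q))]

section OneD

variable {f : ℝ → ℝ} {I : Set ℝ} {c b : ℝ}

lemma deriv_holder (hy : ∀ t ∈ I, (deriv f t) ^ 3 = 3 * c * t + b) {s t : ℝ} (hs : s ∈ I)
    (ht : t ∈ I) : |deriv f s - deriv f t| ^ 3 ≤ 12 * |c| * |s - t| := by
  have h1 := cube_diff_le (deriv f s) (deriv f t)
  rw [hy s hs, hy t ht] at h1
  have h2 : 3 * c * s + b - (3 * c * t + b) = 3 * (c * (s - t)) := by ring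
  rw [h2, abs_mul, abs_mul] at h1
  have h3 : |(3 : ℝ)| = 3 := by norm_num
  rw [h3] at h1
  linarith

lemma continuousOn_deriv_of_cube (hy : ∀ t ∈ I, (deriv f t) ^ 3 = 3 * c * t + b) :
    ContinuousOn (deriv f) I := by
  rw [Metric.continuousOn_iff]
  intro t ht ε hε
  refine ⟨ε ^ 3 / (12 * |c| + 1), by positivity, fun s hs hdist => ?_⟩
  rw [Real.dist_eq] at hdist ⊢
  have h1 := deriv_holder hy hs ht
  have h2 : 0 < 12 * |c| + 1 := by positivity
  rw [lt_div_iff₀ h2] at hdist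
  have h3 : |deriv f s - deriv f t| ^ 3 < ε ^ 3 := by
    have := abs_nonneg (s - t)
    have := abs_nonneg c
    nlinarith
  exact lt_of_pow_lt_pow_left₀ 3 hε.le h3

lemma contDiffOn_one_of_cube (hIo : IsOpen I) (hd : ∀ t ∈ I, DifferentiableAt ℝ f t)
    (hy : ∀ t ∈ I, (deriv f t) ^ 3 = 3 * c * t + b) : ContDiffOn ℝ 1 f I := by
  have h1 := (contDiffOn_succ_iff_deriv_of_isOpen (𝕜 := ℝ) (n := 0) (f := f) hIo).2
    ⟨fun t ht => (hd t ht).differentiableWithinAt, by simp,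
      contDiffOn_zero.2 (continuousOn_deriv_of_cube hy)⟩
  simpa using h1

lemma coef_bound_nonneg (hd : ∀ t ∈ I, DifferentiableAt ℝ f t)
    (hy : ∀ t ∈ I, (deriv f t) ^ 3 = 3 * c * t + b) (hc : 0 ≤ c) {a₀ R M : ℝ} (hR : 0 < R)
    (hJ : Ioo (a₀ - R) (a₀ + R) ⊆ I)
    (hM : ∀ s ∈ Ioo (a₀ - R) (a₀ + R), ∀ t ∈ Ioo (a₀ - R) (a₀ + R), f s - f t ≤ M) :
    3 * c * R ^ 4 ≤ 32 * M ^ 3 := by
  have hmem : ∀ t, a₀ - R < t → t < a₀ + R → t ∈ I := fun t h1 h2 => hJ ⟨h1, h2⟩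
  have hmem' : ∀ t, a₀ - R < t → t < a₀ + R → t ∈ Ioo (a₀ - R) (a₀ + R) := fun t h1 h2 => ⟨h1, h2⟩
  have hM0 : 0 ≤ M := by
    have := hM a₀ (hmem' _ (by linarith) (by linarith)) a₀ (hmem' _ (by linarith) (by linarith))
    linarith
  -- monotonicity of the slope
  have hcube : StrictMono fun a : ℝ => a ^ 3 := Odd.strictMono_pow (by decide)
  have hmono : ∀ s ∈ I, ∀ t ∈ I, s ≤ t → deriv f s ≤ deriv f t := by
    intro s hs t ht hst
    have h1 : (deriv f s) ^ 3 ≤ (deriv f t) ^ 3 := by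
      rw [hy s hs, hy t ht]
      nlinarith
    exact hcube.le_iff_le.1 h1
  set a₁ := a₀ - 3 * R / 4 with ha₁
  set a₂ := a₀ - R / 4 with ha₂
  set b₂ := a₀ + R / 4 with hb₂
  set b₁ := a₀ + 3 * R / 4 with hb₁
  have ha₁m : a₁ ∈ Ioo (a₀ - R) (a₀ + R) := hmem' _ (by rw [ha₁]; linarith) (by rw [ha₁]; linarith)
  have ha₂m : a₂ ∈ Ioo (a₀ - R) (a₀ + R) := hmem' _ (by rw [ha₂]; linarith) (by rw [ha₂]; linarith)
  have hb₁m : b₁ ∈ Ioo (a₀ - R) (a₀ + R) := hmem' _ (by rw [hb₁]; linarith) (by rw [hb₁]; linarith)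
  have hb₂m : b₂ ∈ Ioo (a₀ - R) (a₀ + R) := hmem' _ (by rw [hb₂]; linarith) (by rw [hb₂]; linarith)
  have hleft : - M ≤ deriv f a₂ * (R / 2) := by
    have hlt : a₁ < a₂ := by rw [ha₁, ha₂]; linarith
    have hsub : Icc a₁ a₂ ⊆ I := fun r hr => hJ ⟨lt_of_lt_of_le ha₁m.1 hr.1, lt_of_le_of_lt hr.2 ha₂m.2⟩
    obtain ⟨r, hr, hr'⟩ := exists_deriv_eq_slope f hlt
      (fun r hr => (hd r (hsub hr)).continuousAt.continuousWithinAt)
      (fun r hr => (hd r (hsub (Ioo_subset_Icc_self hr))).differentiableWithinAt)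
    have h1 := hmono r (hsub (Ioo_subset_Icc_self hr)) a₂ (hJ ha₂m) hr.2.le
    have h2 : a₂ - a₁ = R / 2 := by rw [ha₁, ha₂]; ring
    rw [h2] at hr'
    have h3 : deriv f r * (R / 2) = f a₂ - f a₁ := by
      rw [hr']; field_simp
    have h4 := hM a₁ ha₁m a₂ ha₂m
    have h5 : deriv f r * (R / 2) ≤ deriv f a₂ * (R / 2) :=
      mul_le_mul_of_nonneg_right h1 (by positivity)
    linarith
  have hright : deriv f b₂ * (R / 2) ≤ M := by
    have hlt : b₂ < b₁ := by rw [hb₁, hb₂]; linarith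
    have hsub : Icc b₂ b₁ ⊆ I := fun r hr => hJ ⟨lt_of_lt_of_le hb₂m.1 hr.1, lt_of_le_of_lt hr.2 hb₁m.2⟩
    obtain ⟨r, hr, hr'⟩ := exists_deriv_eq_slope f hlt
      (fun r hr => (hd r (hsub hr)).continuousAt.continuousWithinAt)
      (fun r hr => (hd r (hsub (Ioo_subset_Icc_self hr))).differentiableWithinAt)
    have h1 := hmono b₂ (hJ hb₂m) r (hsub (Ioo_subset_Icc_self hr)) hr.1.le
    have h2 : b₁ - b₂ = R / 2 := by rw [hb₁, hb₂]; ring
    rw [h2] at hr'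
    have h3 : deriv f r * (R / 2) = f b₁ - f b₂ := by
      rw [hr']; field_simp
    have h4 := hM b₁ hb₁m b₂ hb₂m
    have h5 : deriv f b₂ * (R / 2) ≤ deriv f r * (R / 2) :=
      mul_le_mul_of_nonneg_right h1 (by positivity)
    linarith
  have h1 : (deriv f a₂ * (R / 2)) ^ 3 ≥ (- M) ^ 3 := hcube.monotone hleft
  have h2 : (deriv f b₂ * (R / 2)) ^ 3 ≤ M ^ 3 := hcube.monotone hright
  have h3 : (deriv f b₂ * (R / 2)) ^ 3 - (deriv f a₂ * (R / 2)) ^ 3 = 3 * c * R ^ 4 / 16 := by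
    rw [mul_pow, mul_pow, hy b₂ (hJ hb₂m), hy a₂ (hJ ha₂m), hb₂, ha₂]
    ring
  have h4 : (- M) ^ 3 = - M ^ 3 := by ring
  rw [h4] at h1
  linarith

lemma coef_bound (hd : ∀ t ∈ I, DifferentiableAt ℝ f t)
    (hy : ∀ t ∈ I, (deriv f t) ^ 3 = 3 * c * t + b) {a₀ R M : ℝ} (hR : 0 < R)
    (hJ : Ioo (a₀ - R) (a₀ + R) ⊆ I)
    (hM : ∀ s ∈ Ioo (a₀ - R) (a₀ + R), ∀ t ∈ Ioo (a₀ - R) (a₀ + R), f s - f t ≤ M) :
    3 * |c| * R ^ 4 ≤ 32 * M ^ 3 := by
  rcases le_total 0 c with hc | hc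
  · rw [abs_of_nonneg hc]
    exact coef_bound_nonneg hd hy hc hR hJ hM
  · rw [abs_of_nonpos hc]
    have h := coef_bound_nonneg (f := fun s => - f s) (c := - c) (b := - b) (I := I)
      (fun t ht => (hd t ht).neg)
      (fun t ht => by
        rw [deriv_neg_fun]
        have := hy t ht
        linear_combination - this)
      (by linarith) hR hJ (fun s hs t ht => by
        have := hM t ht s hs
        linarith)
    linarith

end OneD

section Main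

variable {I : Fin d → Set ℝ} {f : Fin d → ℝ → ℝ} {c b : Fin d → ℝ}

lemma sep_hasFDerivAt {z : EuclideanSpace ℝ (Fin d)}
    (hz : ∀ i, DifferentiableAt ℝ (f i) (z i)) :
    HasFDerivAt (fun x : EuclideanSpace ℝ (Fin d) => ∑ i, f i (x i))
      (∑ i, deriv (f i) (z i) •
        (EuclideanSpace.proj i : EuclideanSpace ℝ (Fin d) →L[ℝ] ℝ)) z := by
  apply HasFDerivAt.fun_sum
  intro i _
  have h1 : HasFDerivAt (fun x : EuclideanSpace ℝ (Fin d) => x i)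
      (EuclideanSpace.proj i : EuclideanSpace ℝ (Fin d) →L[ℝ] ℝ) z :=
    (EuclideanSpace.proj i : EuclideanSpace ℝ (Fin d) →L[ℝ] ℝ).hasFDerivAt
  have h2 := (hz i).hasDerivAt.comp_hasFDerivAt z h1
  exact h2

lemma sep_gradient {z : EuclideanSpace ℝ (Fin d)} (hz : ∀ i, DifferentiableAt ℝ (f i) (z i))
    (i : Fin d) :
    gradient (fun x : EuclideanSpace ℝ (Fin d) => ∑ i, f i (x i)) z i = deriv (f i) (z i) := by
  rw [gradient_apply, (sep_hasFDerivAt hz).fderiv]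
  simp only [_root_.sum_apply, _root_.smul_apply, smul_eq_mul]
  rw [Finset.sum_eq_single i]
  · simp
  · intro j _ hj
    simp [hj]
  · simp

lemma sep_contDiffOn (hIo : ∀ i, IsOpen (I i))
    (hf : ∀ i, ∀ t ∈ I i, DifferentiableAt ℝ (f i) t ∧ (deriv (f i) t) ^ 3 = 3 * c i * t + b i) :
    ContDiffOn ℝ 1 (fun x : EuclideanSpace ℝ (Fin d) => ∑ i, f i (x i)) {x | ∀ i, x i ∈ I i} := by
  apply ContDiffOn.sum
  intro i _
  have h1 : ContDiffOn ℝ 1 (f i) (I i) :=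
    contDiffOn_one_of_cube (hIo i) (fun t ht => (hf i t ht).1) (fun t ht => (hf i t ht).2)
  have h2 : ContDiff ℝ 1 (fun x : EuclideanSpace ℝ (Fin d) => x i) :=
    (EuclideanSpace.proj i : EuclideanSpace ℝ (Fin d) →L[ℝ] ℝ).contDiff
  exact h1.comp h2.contDiffOn (fun x hx => hx i)

lemma line_single_apply (x₀ : EuclideanSpace ℝ (Fin d)) (i j : Fin d) (r : ℝ) :
    (x₀ + r • EuclideanSpace.single i (1 : ℝ)) j = if j = i then x₀ j + r else x₀ j := by
  by_cases h : j = i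
  · simp [h]
  · simp [h]

lemma line_mem_ball (x₀ : EuclideanSpace ℝ (Fin d)) (i : Fin d) {r R : ℝ} (h : |r| < R) :
    x₀ + r • EuclideanSpace.single i (1 : ℝ) ∈ Metric.ball x₀ R := by
  rw [Metric.mem_ball, dist_eq_norm]
  have : x₀ + r • EuclideanSpace.single i (1 : ℝ) - x₀ = r • EuclideanSpace.single i (1 : ℝ) := by
    abel
  rw [this, norm_smul, EuclideanSpace.norm_single]
  simpa using h

lemma sep_coef_bound
    (hf : ∀ i, ∀ t ∈ I i, DifferentiableAt ℝ (f i) t ∧ (deriv (f i) t) ^ 3 = 3 * c i * t + b i)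
    {x₀ : EuclideanSpace ℝ (Fin d)} {R M : ℝ} (hR : 0 < R)
    (hball : Metric.ball x₀ R ⊆ {x | ∀ i, x i ∈ I i})
    (hM : ∀ y ∈ Metric.ball x₀ R, ∀ z ∈ Metric.ball x₀ R,
      (∑ i, f i (y i)) - (∑ i, f i (z i)) ≤ M) (i : Fin d) :
    3 * |c i| * R ^ 4 ≤ 32 * M ^ 3 := by
  have hlin : ∀ t ∈ Ioo (x₀ i - R) (x₀ i + R),
      x₀ + (t - x₀ i) • EuclideanSpace.single i (1 : ℝ) ∈ Metric.ball x₀ R := by
    intro t ht
    apply line_mem_ball
    rw [abs_lt]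
    constructor <;> linarith [ht.1, ht.2]
  refine coef_bound (a₀ := x₀ i) (I := I i) (fun t ht => (hf i t ht).1)
    (fun t ht => (hf i t ht).2) hR ?_ ?_
  · intro t ht
    have h1 := hball (hlin t ht) i
    have h2 : (x₀ + (t - x₀ i) • EuclideanSpace.single i (1 : ℝ)) i = t := by
      rw [line_single_apply]
      simp
    rw [h2] at h1
    exact h1
  · intro s hs t ht
    have h1 := hM _ (hlin s hs) _ (hlin t ht)
    rw [← Finset.sum_sub_distrib, Finset.sum_eq_single i] at h1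
    · simpa [line_single_apply] using h1
    · intro j _ hj
      simp [line_single_apply, hj]
    · simp

/-- The gradient estimate in terms of the oscillation on a ball. -/
theorem sep_estimate
    (hf : ∀ i, ∀ t ∈ I i, DifferentiableAt ℝ (f i) t ∧ (deriv (f i) t) ^ 3 = 3 * c i * t + b i)
    {x₀ : EuclideanSpace ℝ (Fin d)} {R M : ℝ} (hR : 0 < R)
    (hball : Metric.ball x₀ R ⊆ {x | ∀ i, x i ∈ I i})
    (hM : ∀ y ∈ Metric.ball x₀ R, ∀ z ∈ Metric.ball x₀ R,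
      (∑ i, f i (y i)) - (∑ i, f i (z i)) ≤ M)
    {x y : EuclideanSpace ℝ (Fin d)} (hx : ∀ i, x i ∈ I i) (hy : ∀ i, y i ∈ I i) :
    ‖gradient (fun x : EuclideanSpace ℝ (Fin d) => ∑ i, f i (x i)) x
        - gradient (fun x : EuclideanSpace ℝ (Fin d) => ∑ i, f i (x i)) y‖ ^ 3
      ≤ 128 * (d : ℝ) ^ 2 * (M / R) ^ 3 * (‖x - y‖ / R) := by
  set v := gradient (fun x : EuclideanSpace ℝ (Fin d) => ∑ i, f i (x i)) x
        - gradient (fun x : EuclideanSpace ℝ (Fin d) => ∑ i, f i (x i)) y with hv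
  have hM0 : 0 ≤ M := by
    have hc : x₀ ∈ Metric.ball x₀ R := Metric.mem_ball_self hR
    have := hM x₀ hc x₀ hc
    linarith
  have hvi : ∀ i, v i = deriv (f i) (x i) - deriv (f i) (y i) := by
    intro i
    rw [hv, PiLp.sub_apply, sep_gradient (fun i => (hf i _ (hx i)).1),
      sep_gradient (fun i => (hf i _ (hy i)).1)]
  set Q := 128 * (M / R) ^ 3 * (‖x - y‖ / R) with hQ
  have hQ0 : 0 ≤ Q := by positivity
  have hcomp : ∀ i, |v i| ^ 3 ≤ Q := by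
    intro i
    rw [hvi i]
    have h1 := deriv_holder (f := f i) (I := I i) (c := c i) (b := b i)
      (fun t ht => (hf i t ht).2) (hx i) (hy i)
    have h2 : |x i - y i| ≤ ‖x - y‖ := by
      have := PiLp.norm_apply_le (x - y) i
      simpa using this
    have h3 := sep_coef_bound hf hR hball hM i
    refine h1.trans ?_
    have h4 : 12 * |c i| * |x i - y i| ≤ 12 * |c i| * ‖x - y‖ :=
      mul_le_mul_of_nonneg_left h2 (by positivity)
    refine h4.trans ?_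
    rw [hQ]
    have hR4 : 0 < R ^ 4 := by positivity
    have h5 : 128 * (M / R) ^ 3 * (‖x - y‖ / R) = 128 * M ^ 3 * ‖x - y‖ / R ^ 4 := by
      field_simp
    rw [h5, le_div_iff₀ hR4]
    have h6 := norm_nonneg (x - y)
    nlinarith
  have hgoal : 128 * (d : ℝ) ^ 2 * (M / R) ^ 3 * (‖x - y‖ / R) = (d : ℝ) ^ 2 * Q := by
    rw [hQ]; ring
  rw [hgoal]
  rcases Nat.eq_zero_or_pos d with hd | hd
  · subst hd
    have : v = 0 := by
      ext i
      exact i.elim0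
    simp [this]
  · have hne : (Finset.univ : Finset (Fin d)).Nonempty := ⟨⟨0, hd⟩, Finset.mem_univ _⟩
    obtain ⟨j, _, hj⟩ := Finset.exists_max_image Finset.univ (fun i => |v i|) hne
    have hnorm : ‖v‖ ^ 2 ≤ (d : ℝ) * |v j| ^ 2 := by
      rw [EuclideanSpace.norm_sq_eq]
      calc ∑ i, ‖v i‖ ^ 2 ≤ ∑ _i : Fin d, |v j| ^ 2 := by
            apply Finset.sum_le_sum
            intro i hi
            rw [Real.norm_eq_abs]
            exact pow_le_pow_left₀ (abs_nonneg _) (hj i hi) 2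
        _ = (d : ℝ) * |v j| ^ 2 := by
            simp
    have hd1 : (1 : ℝ) ≤ d := by exact_mod_cast hd
    have hN : 0 ≤ ‖v‖ := norm_nonneg _
    have h3 : (‖v‖ ^ 3) ^ 2 ≤ ((d : ℝ) ^ 2 * Q) ^ 2 := by
      have h4 : (‖v‖ ^ 2) ^ 3 ≤ ((d : ℝ) * |v j| ^ 2) ^ 3 :=
        pow_le_pow_left₀ (by positivity) hnorm 3
      have h5 : (|v j| ^ 3) ^ 2 ≤ Q ^ 2 :=
        pow_le_pow_left₀ (by positivity) (hcomp j) 2
      have h6 : ((d : ℝ) * |v j| ^ 2) ^ 3 = (d : ℝ) ^ 3 * (|v j| ^ 3) ^ 2 := by ring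
      have h7 : (d : ℝ) ^ 3 ≤ (d : ℝ) ^ 4 := by
        have : (0 : ℝ) ≤ (d : ℝ) ^ 3 := by positivity
        nlinarith
      calc (‖v‖ ^ 3) ^ 2 = (‖v‖ ^ 2) ^ 3 := by ring
        _ ≤ (d : ℝ) ^ 3 * (|v j| ^ 3) ^ 2 := by rw [← h6]; exact h4
        _ ≤ (d : ℝ) ^ 3 * Q ^ 2 := mul_le_mul_of_nonneg_left h5 (by positivity)
        _ ≤ (d : ℝ) ^ 4 * Q ^ 2 := mul_le_mul_of_nonneg_right h7 (by positivity)
        _ = ((d : ℝ) ^ 2 * Q) ^ 2 := by ring
    exact (sq_le_sq₀ (by positivity) (by positivity)).1 h3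

end Main

end Vale.Agent.Lib.P080
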